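import Vale.Agent.P088.R2.H820.W.Quad

/-!
# Exact identities for dressed derivatives

`X k = ∂_k + W_k`, `Xs k = W_k - ∂_k`, `[X k, Xs l] = 2 W_kl`.
-/

open MeasureTheory Set
open scoped ContDiff

noncomputable section

namespace Vale.Agent.P088.R2.H820.W

open Vale.Agent.P088.R2.H464.EP

variable {E κ : Type} [NormedAddCommGroup E] [NormedSpace ℝ E] (dir : κ → E) (W : Sm E)

/-- `W_k`. -/
def wk (k : κ) : Sm E := ds (dir k) W

/-- `W_kl`. -/
def ck (k l : κ) : Sm E := ds (dir k) (ds (dir l) W)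

/-- `∂_k + W_k`. -/
def X (k : κ) : Op E := dv (dir k) + ml (wk dir W k)

/-- `W_k - ∂_k`. -/
def Xs (k : κ) : Op E := ml (wk dir W k) - dv (dir k)

theorem ck_symm (k l : κ) : ck dir W k l = ck dir W l k := ds_comm _ _ _

section pw

variable {dir W} (k l : κ) (g : Sm E) (u f : TE E)

theorem X_mul : X dir W k * ml g = ml g * X dir W k + ml (ds (dir k) g) := by
  unfold X
  rw [add_mul, mul_add, dv_ml, mlc]
  abel

theorem Xs_mul : Xs dir W k * ml g = ml g * Xs dir W k - ml (ds (dir k) g) := by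
  unfold Xs
  rw [sub_mul, mul_sub, dv_ml, mlc]
  abel

theorem X_Xs : X dir W k * Xs dir W l = Xs dir W l * X dir W k + (2 : ℝ) • ml (ck dir W k l) := by
  unfold X Xs
  have h1 := dv_ml (dir k) (wk dir W l)
  have h2 := dv_ml (dir l) (wk dir W k)
  have h3 := dv_comm (dir k) (dir l)
  have h4 := mlc (wk dir W k) (wk dir W l)
  have h5 : ds (dir k) (wk dir W l) = ck dir W k l := rfl
  have h6 : ds (dir l) (wk dir W k) = ck dir W k l := by rw [ck_symm]; rfl
  rw [h5] at h1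
  rw [h6] at h2
  rw [add_mul, mul_sub, mul_sub, sub_mul, mul_add, mul_add, h1, h2, h3, h4, two_smul]
  abel

theorem X_X : X dir W k * X dir W l = X dir W l * X dir W k := by
  unfold X
  have h1 := dv_ml (dir k) (wk dir W l)
  have h2 := dv_ml (dir l) (wk dir W k)
  have h3 := dv_comm (dir k) (dir l)
  have h4 := mlc (wk dir W k) (wk dir W l)
  have h5 : ds (dir k) (wk dir W l) = ck dir W k l := rfl
  have h6 : ds (dir l) (wk dir W k) = ck dir W k l := by rw [ck_symm]; rfl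
  rw [h5] at h1
  rw [h6] at h2
  rw [add_mul, mul_add, mul_add, add_mul, mul_add, mul_add, h1, h2, h3, h4]
  abel

theorem Xs_Xs : Xs dir W k * Xs dir W l = Xs dir W l * Xs dir W k := by
  unfold Xs
  have h1 := dv_ml (dir k) (wk dir W l)
  have h2 := dv_ml (dir l) (wk dir W k)
  have h3 := dv_comm (dir k) (dir l)
  have h4 := mlc (wk dir W k) (wk dir W l)
  have h5 : ds (dir k) (wk dir W l) = ck dir W k l := rfl
  have h6 : ds (dir l) (wk dir W k) = ck dir W k l := by rw [ck_symm]; rfl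
  rw [h5] at h1
  rw [h6] at h2
  rw [sub_mul, mul_sub, mul_sub, sub_mul, mul_sub, mul_sub, h1, h2, h3, h4]
  abel

theorem X_ml : X dir W k (ml g u) = ml g (X dir W k u) + ml (ds (dir k) g) u :=
  congrArg (fun T : Op E => T u) (X_mul (dir := dir) (W := W) k g)

theorem Xs_ml : Xs dir W k (ml g u) = ml g (Xs dir W k u) - ml (ds (dir k) g) u :=
  congrArg (fun T : Op E => T u) (Xs_mul (dir := dir) (W := W) k g)

theorem X_Xs' : X dir W k (Xs dir W l u) = Xs dir W l (X dir W k u) +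
    (2 : ℝ) • ml (ck dir W k l) u :=
  congrArg (fun T : Op E => T u) (X_Xs (dir := dir) (W := W) k l)

theorem X_X' : X dir W k (X dir W l u) = X dir W l (X dir W k u) :=
  congrArg (fun T : Op E => T u) (X_X (dir := dir) (W := W) k l)

theorem Xs_Xs' : Xs dir W k (Xs dir W l u) = Xs dir W l (Xs dir W k u) :=
  congrArg (fun T : Op E => T u) (Xs_Xs (dir := dir) (W := W) k l)

theorem X_eq : X dir W k u = dv (dir k) u + ml (wk dir W k) u := rfl

theorem Xs_eq : Xs dir W k u = ml (wk dir W k) u - dv (dir k) u := rfl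

theorem dv_ml' (v : E) : dv v (ml g u) = ml g (dv v u) + ml (ds v g) u :=
  congrArg (fun T : Op E => T u) (dv_ml v g)

theorem dv_comm' (v w : E) : dv v (dv w u) = dv w (dv v u) :=
  congrArg (fun T : Op E => T u) (dv_comm v w)

theorem ml_ml (h : Sm E) : ml g (ml h u) = ml (g * h) u := by rw [map_mul]; rfl

theorem ml_add' (h : Sm E) : ml (g + h) u = ml g u + ml h u := by rw [map_add]; rfl

theorem ml_sub' (h : Sm E) : ml (g - h) u = ml g u - ml h u := by rw [map_sub]; rfl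

theorem ml_smul' (c : ℝ) : ml (c • g) u = c • ml g u := by rw [map_smul]; rfl

end pw

variable [MeasurableSpace E] [BorelSpace E] [FiniteDimensional ℝ E] {μ : Measure E}
  [μ.IsAddHaarMeasure]

section id

variable {dir W} (k l : κ) (ψ g : Sm E) (u f : TE E)

theorem adj_X : Adj μ (X dir W k) (Xs dir W k) := by
  have := (adj_dv μ (dir k)).add (adj_ml (μ := μ) (wk dir W k))
  unfold X Xs
  rw [sub_eq_add_neg, add_comm (ml (wk dir W k))]
  exact this

theorem ip_X : ip μ (X dir W k u) f = ip μ u (Xs dir W k f) := adj_X k u f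

theorem ip_Xs : ip μ (Xs dir W k u) f = ip μ u (X dir W k f) := (adj_X k).symm u f

/-- `∫ g u ∂u = -½ ∫ (∂g) u²`. -/
theorem half (v : E) : ip μ (ml g (dv v u)) u = -(1 / 2) * ip μ (ml (ds v g) u) u := by
  have h1 : ip μ (ml g (dv v u)) u = ip μ (dv v u) (ml g u) := ip_ml μ g _ _
  have h2 : ip μ (dv v u) (ml g u) = -ip μ u (dv v (ml g u)) := ip_dv μ v u _
  have h3 : ip μ u (dv v (ml g u)) = ip μ u (ml g (dv v u)) + ip μ u (ml (ds v g) u) := by
    rw [dv_ml', map_add]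
  have h4 : ip μ u (ml g (dv v u)) = ip μ (ml g (dv v u)) u := ip_comm μ _ _
  have h5 : ip μ u (ml (ds v g) u) = ip μ (ml (ds v g) u) u := ip_comm μ _ _
  linarith

/-- **The swap identity.** -/
theorem swap : ip μ (ml ψ (Xs dir W k u)) (Xs dir W l f) =
    ip μ (ml ψ (X dir W l u)) (X dir W k f) + 2 * ip μ (ml (ψ * ck dir W k l) u) f +
      ip μ (ml (ds (dir k) ψ) (X dir W l u)) f + ip μ (ml (ds (dir l) ψ) (Xs dir W k u)) f := by
  rw [← ip_X, X_ml, X_Xs']
  simp only [map_add, LinearMap.add_apply]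
  have h1 : ip μ (ml ψ (Xs dir W k (X dir W l u))) f =
      ip μ (ml ψ (X dir W l u)) (X dir W k f) + ip μ (ml (ds (dir k) ψ) (X dir W l u)) f := by
    rw [ip_ml, ip_Xs, X_ml, map_add, ← ip_ml, ← ip_ml]
  have h2 : ip μ (ml ψ ((2 : ℝ) • ml (ck dir W l k) u)) f =
      2 * ip μ (ml (ψ * ck dir W k l) u) f := by
    rw [map_smul, ml_ml, ck_symm, map_smul, LinearMap.smul_apply, smul_eq_mul]
  rw [h1, h2]
  ring

/-- **The energy identity.** -/
theorem energy : ip μ (ml ψ (Xs dir W k u)) (Xs dir W k u) =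
    2 * ip μ (ml (ψ * (wk dir W k * wk dir W k)) u) u - ip μ (ml ψ u) (X dir W k (X dir W k u)) +
      1 / 2 * ip μ (ml (ds (dir k) (ds (dir k) ψ)) u) u + ip μ (ml (ψ * ck dir W k k) u) u := by
  set w := wk dir W k with hw
  have e : Xs dir W k u = (2 : ℝ) • ml w u - X dir W k u := by
    rw [Xs_eq, X_eq, two_smul, ← hw]; abel
  have h1 : ip μ (ml ψ (Xs dir W k u)) (Xs dir W k u) =
      2 * ip μ (ml ψ (Xs dir W k u)) (ml w u) - ip μ (ml ψ (Xs dir W k u)) (X dir W k u) := by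
    have : ∀ y : TE E, ip μ y (Xs dir W k u) = 2 * ip μ y (ml w u) - ip μ y (X dir W k u) :=
      fun y => by rw [e, map_sub, map_smul, smul_eq_mul]
    exact this _
  have h2 : ip μ (ml ψ (Xs dir W k u)) (X dir W k u) =
      ip μ (ml ψ u) (X dir W k (X dir W k u)) + ip μ (ml (ds (dir k) ψ) (X dir W k u)) u := by
    rw [ip_ml, ip_Xs, X_ml, map_add, ← ip_ml, ip_comm μ u]
  have h3 : ip μ (ml ψ (Xs dir W k u)) (ml w u) =
      ip μ (ml (ψ * (w * w)) u) u + 1 / 2 * ip μ (ml (ds (dir k) (ψ * w)) u) u := by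
    rw [Xs_eq, map_sub, map_sub, LinearMap.sub_apply, ← hw]
    have a1 : ip μ (ml ψ (ml w u)) (ml w u) = ip μ (ml (ψ * (w * w)) u) u := by
      rw [← ip_ml, ml_ml, ml_ml]
      rw [show w * ψ * w = ψ * (w * w) by ring]
    have a2 : ip μ (ml ψ (dv (dir k) u)) (ml w u) = ip μ (ml (ψ * w) (dv (dir k) u)) u := by
      rw [← ip_ml, ml_ml, mul_comm w ψ]
    rw [a1, a2, half]
    ring
  have h4 : ip μ (ml (ds (dir k) ψ) (X dir W k u)) u =
      -(1 / 2) * ip μ (ml (ds (dir k) (ds (dir k) ψ)) u) u +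
        ip μ (ml (ds (dir k) ψ * w) u) u := by
    rw [X_eq, map_add, map_add, LinearMap.add_apply, half, ml_ml]
  have h5 : ds (dir k) (ψ * w) = ds (dir k) ψ * w + ψ * ck dir W k k := by
    rw [ds_mul]; rfl
  rw [h1, h2, h3, h4, h5, ml_add', map_add, LinearMap.add_apply]
  ring

/-- The energy identity for the plain derivative. -/
theorem energy' : ip μ (ml ψ (dv (dir k) u)) (dv (dir k) u) =
    ip μ (ml (ψ * (wk dir W k * wk dir W k)) u) u - ip μ (ml ψ u) (X dir W k (X dir W k u)) +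
      1 / 2 * ip μ (ml (ds (dir k) (ds (dir k) ψ)) u) u -
      ip μ (ml (ds (dir k) ψ * wk dir W k) u) u := by
  have h0 := energy (μ := μ) (dir := dir) (W := W) k ψ u
  set w := wk dir W k with hw
  have h1 : ip μ (ml ψ (Xs dir W k u)) (Xs dir W k u) =
      ip μ (ml (ψ * (w * w)) u) u - 2 * ip μ (ml (ψ * w) (dv (dir k) u)) u +
        ip μ (ml ψ (dv (dir k) u)) (dv (dir k) u) := by
    rw [Xs_eq, ← hw]
    simp only [map_sub, LinearMap.sub_apply]
    have a1 : ip μ (ml ψ (ml w u)) (ml w u) = ip μ (ml (ψ * (w * w)) u) u := by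
      rw [← ip_ml, ml_ml, ml_ml]
      rw [show w * ψ * w = ψ * (w * w) by ring]
    have a2 : ip μ (ml ψ (dv (dir k) u)) (ml w u) = ip μ (ml (ψ * w) (dv (dir k) u)) u := by
      rw [← ip_ml, ml_ml, mul_comm w ψ]
    have a3 : ip μ (ml ψ (ml w u)) (dv (dir k) u) = ip μ (ml (ψ * w) (dv (dir k) u)) u := by
      rw [ml_ml, ip_ml, ip_comm]
    rw [a1, a2, a3]
    ring
  have h2 : ds (dir k) (ψ * w) = ds (dir k) ψ * w + ψ * ck dir W k k := by
    rw [ds_mul]; rfl
  rw [h1, half, h2, ml_add', map_add, LinearMap.add_apply] at h0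
  linarith

/-- The second order identity. -/
theorem second (v w : E) : ip μ (ml ψ (dv w (dv v u))) (dv w (dv v u)) =
    ip μ (ml ψ (dv v (dv v u))) (dv w (dv w u)) + ip μ (ml (ds v ψ) (dv v u)) (dv w (dv w u)) -
      ip μ (ml (ds w ψ) (dv w (dv v u))) (dv v u) := by
  have h1 : ip μ (ml ψ (dv w (dv v u))) (dv w (dv v u)) =
      -ip μ (dv w (ml ψ (dv w (dv v u)))) (dv v u) := by rw [ip_dv]; ring
  have h2 : dv w (dv w (dv v u)) = dv v (dv w (dv w u)) := by
    rw [dv_comm' (dv v u) w w, dv_comm' u w v, dv_comm' (dv w u) w v]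
  have h3 : ip μ (ml ψ (dv v (dv w (dv w u)))) (dv v u) =
      -ip μ (ml ψ (dv v (dv v u))) (dv w (dv w u)) -
        ip μ (ml (ds v ψ) (dv v u)) (dv w (dv w u)) := by
    rw [ip_ml, ip_dv, dv_ml', map_add, ip_comm μ _ (ml ψ (dv v (dv v u))),
      ip_comm μ _ (ml (ds v ψ) (dv v u))]
    ring
  rw [h1, dv_ml', map_add, LinearMap.add_apply, h2, h3]
  ring

end id

end Vale.Agent.P088.R2.H820.W
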