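import Vale.Agent.P088.R2.H820.W.Lev3

/-!
# The contracted derivatives `f j = ∑ M_ij xs_i a`, `f' j = ∑ M_ij x_i a`
-/

open MeasureTheory Set
open scoped ContDiff

set_option linter.unusedSectionVars false

noncomputable section

namespace Vale.Agent.P088.R2.H820.W

open Vale.Agent.P088.R2.H464.EP

namespace Sg

variable {D E ι : Type} [NormedAddCommGroup E] [NormedSpace ℝ E] [Fintype ι] [MeasurableSpace E]
  [BorelSpace E] [FiniteDimensional ℝ E] {μ : Measure E} [μ.IsAddHaarMeasure]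
  {S : Sg D E ι μ} {s t m p : ℤ} {u v : D → TE E} {g ψ : D → Sm E} {T : D → ℝ}

/-- `∑ M_ij xs_i a`. -/
def f (S : Sg D E ι μ) (j : ι) (d : D) : TE E := ∑ i, ml (S.M i j d) (S.xs i d (S.a d))

/-- `∑ M_ij x_i a`. -/
def f' (S : Sg D E ι μ) (j : ι) (d : D) : TE E := ∑ i, ml (S.M i j d) (S.x i d (S.a d))

/-- `∂_{y_k} M_ij`. -/
def dM (S : Sg D E ι μ) (k i j : ι) (d : D) : Sm E := ds (S.dir (Sum.inr k)) (S.M i j d)

theorem dM_symm (k i j : ι) (d : D) : S.dM k i j d = S.dM j i k d := by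
  unfold dM M ck
  rw [ds_comm (S.dir (Sum.inl i)), ds_comm (S.dir (Sum.inr k)), ds_comm (S.dir (Sum.inl i))]

theorem BdM (k i j : ι) : S.B 2 (S.dM k i j) := (S.BM i j).dr _

theorem q_f (j : ι) : S.Q 2 2 (S.f j) :=
  (Qd.sum _ fun i _ => Q_ml' (q_xs i) (S.BM i j) (by norm_num) (by norm_num)).congr fun _ => rfl

theorem q_f' (j : ι) : S.Q 2 2 (S.f' j) :=
  (Qd.sum _ fun i _ => Q_ml' (q_x i) (S.BM i j) (by norm_num) (by norm_num)).congr fun _ => rfl

theorem y_f (k j : ι) (d : D) : S.y k d (S.f j d) =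
    ∑ i, (ml (S.M i j d) (S.y k d (S.xs i d (S.a d))) +
      ml (S.dM k i j d) (S.xs i d (S.a d))) := by
  unfold f y
  rw [map_sum]
  exact Finset.sum_congr rfl fun i _ => X_ml _ _ _

theorem x_f (k j : ι) (d : D) : S.x k d (S.f j d) =
    ∑ i, (ml (S.M i j d) (S.x k d (S.xs i d (S.a d))) +
      ml (ds (S.dir (Sum.inl k)) (S.M i j d)) (S.xs i d (S.a d))) := by
  unfold f x
  rw [map_sum]
  exact Finset.sum_congr rfl fun i _ => X_ml _ _ _

theorem ys_f (k j : ι) (d : D) : S.ys k d (S.f j d) =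
    ∑ i, (ml (S.M i j d) (S.ys k d (S.xs i d (S.a d))) -
      ml (S.dM k i j d) (S.xs i d (S.a d))) := by
  unfold f ys
  rw [map_sum]
  exact Finset.sum_congr rfl fun i _ => Xs_ml _ _ _

theorem y_f' (k j : ι) (d : D) : S.y k d (S.f' j d) =
    ∑ i, (ml (S.M i j d) (S.y k d (S.x i d (S.a d))) +
      ml (S.dM k i j d) (S.x i d (S.a d))) := by
  unfold f' y
  rw [map_sum]
  exact Finset.sum_congr rfl fun i _ => X_ml _ _ _

theorem ys_f' (k j : ι) (d : D) : S.ys k d (S.f' j d) =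
    ∑ i, (ml (S.M i j d) (S.ys k d (S.x i d (S.a d))) -
      ml (S.dM k i j d) (S.x i d (S.a d))) := by
  unfold f' ys
  rw [map_sum]
  exact Finset.sum_congr rfl fun i _ => Xs_ml _ _ _

theorem q_yf (k j : ι) : S.Q 1 4 (fun d => S.y k d (S.f j d)) := by
  refine (Qd.sum Finset.univ fun i _ => Qd.add ?_ ?_).congr fun d => (y_f k j d).symm
  · exact Q_ml' (q_y_xs i k) (S.BM i j) (by norm_num) (by norm_num)
  · exact Q_ml' (Q_dn (q_xs i) (by norm_num)) (S.BdM k i j) (by norm_num) (by norm_num)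

theorem q_xf (k j : ι) : S.Q 1 4 (fun d => S.x k d (S.f j d)) := by
  refine (Qd.sum Finset.univ fun i _ => Qd.add ?_ ?_).congr fun d => (x_f k j d).symm
  · exact Q_ml' (q_x_xs i k) (S.BM i j) (by norm_num) (by norm_num)
  · exact Q_ml' (Q_dn (q_xs i) (by norm_num)) ((S.BM i j).dr _) (by norm_num) (by norm_num)

theorem q_ysf (k j : ι) : S.Q 1 4 (fun d => S.ys k d (S.f j d)) := by
  refine (Qd.sum Finset.univ fun i _ => Qd.sub ?_ ?_).congr fun d => (ys_f k j d).symm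
  · exact Q_ml' (q_ys_xs i k) (S.BM i j) (by norm_num) (by norm_num)
  · exact Q_ml' (Q_dn (q_xs i) (by norm_num)) (S.BdM k i j) (by norm_num) (by norm_num)

theorem q_yf' (k j : ι) : S.Q 1 4 (fun d => S.y k d (S.f' j d)) := by
  refine (Qd.sum Finset.univ fun i _ => Qd.add ?_ ?_).congr fun d => (y_f' k j d).symm
  · exact Q_ml' (q_y_x i k) (S.BM i j) (by norm_num) (by norm_num)
  · exact Q_ml' (Q_dn (q_x i) (by norm_num)) (S.BdM k i j) (by norm_num) (by norm_num)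

theorem q_ysf' (k j : ι) : S.Q 1 4 (fun d => S.ys k d (S.f' j d)) := by
  refine (Qd.sum Finset.univ fun i _ => Qd.sub ?_ ?_).congr fun d => (ys_f' k j d).symm
  · exact Q_ml' (q_ys_x i k) (S.BM i j) (by norm_num) (by norm_num)
  · exact Q_ml' (Q_dn (q_x i) (by norm_num)) (S.BdM k i j) (by norm_num) (by norm_num)

/-- The commutator of `P₂` and a multiplication. -/
theorem P2_ml (h : Sm E) (d : D) (u : TE E) : S.P2 d (ml h u) = ml h (S.P2 d u) +
    ∑ l, ((2 : ℝ) • ml (ds (S.dir (Sum.inr l)) h) (S.y l d u) +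
      ml (ds (S.dir (Sum.inr l)) (ds (S.dir (Sum.inr l)) h)) u) := by
  unfold P2
  rw [map_sum, ← Finset.sum_add_distrib]
  refine Finset.sum_congr rfl fun l _ => ?_
  unfold y
  rw [X_ml, map_add, X_ml, X_ml, two_smul]
  abel

/-- The term with `P₂ f` is small. -/
theorem R_P2f (hψ : S.B (-6) ψ) (sψ : Su (S.χ 1) ψ) (j : ι) :
    S.R 1 (fun d => ip μ (ml (ψ d) (S.f j d)) (S.P2 d (S.f j d))) := by
  have qf1 : S.Q 1 2 (S.f j) := Q_dn (q_f j) (by norm_num)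
  -- the summands
  have h1 : ∀ i, S.R 1 (fun d => ip μ (ml (ψ d * S.M i j d) (S.x i d (S.f j d)))
      (S.P2 d (S.a d))) := fun i =>
    R_ip (hψ.mul' (S.BM i j) (by norm_num : (-6 : ℤ) + 2 ≤ -4)) (sψ.mul_right _) (by norm_num)
      (q_xf i j) (q_P2 (by norm_num)) (by norm_num)
  have h2 : ∀ i, S.R 1 (fun d => ip μ (ml (ds (S.dir (Sum.inl i)) (ψ d * S.M i j d))
      (S.f j d)) (S.P2 d (S.a d))) := fun i =>
    R_ip ((hψ.mul' (S.BM i j) (by norm_num : (-6 : ℤ) + 2 ≤ -4)).dr _)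
      ((sψ.mul_right _).dr _) (by norm_num) qf1 (q_P2 (by norm_num)) (by norm_num)
  have h3 : ∀ i l, S.R 1 (fun d => ip μ (ml (ψ d * (S.M i j d * S.M i l d)) (S.f j d))
      (S.y l d (S.a d))) := fun i l =>
    R_ip (hψ.mul' ((S.BM i j).mul' (S.BM i l) (by norm_num : (2 : ℤ) + 2 ≤ 4))
      (by norm_num : (-6 : ℤ) + 4 ≤ -2)) (sψ.mul_right _) (by norm_num) qf1
      (Q_dn (q_y l) (by norm_num)) (by norm_num)
  have h4 : ∀ i l, S.R 1 (fun d => ip μ (ml (ψ d * (S.M i j d * S.dM l i l d)) (S.f j d))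
      (S.a d)) := fun i l =>
    R_ip (hψ.mul' ((S.BM i j).mul' (S.BdM l i l) (by norm_num : (2 : ℤ) + 2 ≤ 4))
      (by norm_num : (-6 : ℤ) + 4 ≤ -2)) (sψ.mul_right _) (by norm_num) qf1
      (q_a (by norm_num)) (by norm_num)
  have h5 : ∀ i l, S.R 1 (fun d => ip μ (ml (ψ d * S.dM l i j d) (S.f j d))
      (S.y l d (S.xs i d (S.a d)))) := fun i l =>
    R_ip (hψ.mul' (S.BdM l i j) (by norm_num : (-6 : ℤ) + 2 ≤ -4)) (sψ.mul_right _)
      (by norm_num) qf1 (q_y_xs i l) (by norm_num)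
  have h6 : ∀ i l, S.R 1 (fun d => ip μ (ml (ψ d * ds (S.dir (Sum.inr l)) (S.dM l i j d))
      (S.f j d)) (S.xs i d (S.a d))) := fun i l =>
    R_ip (hψ.mul' ((S.BdM l i j).dr _) (by norm_num : (-6 : ℤ) + 2 ≤ -4)) (sψ.mul_right _)
      (by norm_num) qf1 (Q_dn (q_xs i) (by norm_num)) (by norm_num)
  have h := Rm.sum Finset.univ fun i _ => (((h1 i).add (h2 i)).add
    (Rm.sum Finset.univ fun l _ => ((h3 i l).cmul 4).add ((h4 i l).cmul 2))).add
      (Rm.sum Finset.univ fun l _ => ((h5 i l).cmul 2).add (h6 i l))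
  refine h.congr fun d => ?_
  have e0 : S.P2 d (S.f j d) = ∑ i, S.P2 d (ml (S.M i j d) (S.xs i d (S.a d))) := by
    unfold P2 f
    simp only [map_sum]
    rw [Finset.sum_comm]
  rw [e0, map_sum]
  refine Finset.sum_congr rfl fun i _ => ?_
  rw [P2_ml, P2_xs, map_add, map_add, map_add, map_sum, map_sum, map_sum]
  have e1 : ip μ (ml (ψ d) (S.f j d)) (ml (S.M i j d) (S.xs i d (S.P2 d (S.a d)))) =
      ip μ (ml (ψ d * S.M i j d) (S.x i d (S.f j d))) (S.P2 d (S.a d)) +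
      ip μ (ml (ds (S.dir (Sum.inl i)) (ψ d * S.M i j d)) (S.f j d)) (S.P2 d (S.a d)) := by
    unfold xs x
    rw [← ip_ml, ml_ml, ← ip_X, X_ml, map_add, LinearMap.add_apply, mul_comm (S.M i j d)]
  rw [e1]
  have e2 : ∀ (g h : Sm E) (q : TE E), ip μ (ml (ψ d) (S.f j d)) (ml g (ml h q)) =
      ip μ (ml (ψ d * (g * h)) (S.f j d)) q := by
    intro g h q
    rw [← ip_ml, ← ip_ml, ml_ml, ml_ml]
    rw [show h * g * ψ d = ψ d * (g * h) by ring]
  have e3 : ∀ (g : Sm E) (q : TE E), ip μ (ml (ψ d) (S.f j d)) (ml g q) =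
      ip μ (ml (ψ d * g) (S.f j d)) q := by
    intro g q
    rw [← ip_ml, ml_ml, mul_comm g]
  congr 1
  · congr 1
    refine Finset.sum_congr rfl fun l _ => ?_
    rw [map_add, map_smul, map_smul, map_add, map_smul, map_smul, e2, e2, smul_eq_mul,
      smul_eq_mul]
    rfl
  · refine Finset.sum_congr rfl fun l _ => ?_
    rw [map_add, map_smul, e3, e3, smul_eq_mul]
    rfl

/-- `|W_y|²`. -/
def L2 (S : Sg D E ι μ) (d : D) : Sm E := ∑ k, S.wy k d * S.wy k d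

theorem BL2 : S.B 4 S.L2 := (Bd.sum _ fun k _ => (S.Bwy k).mul' (S.Bwy k)
  (by norm_num : (2 : ℤ) + 2 ≤ 4))

/-- Energy in `y`: `∑ ‖ys u‖² ≈ 2 |W_y|² u²`. -/
theorem energy_y (hψ : S.B m ψ) (sψ : Su (S.χ 1) ψ) (hu : S.Q 1 s u) (hm : m + 2 * s + 2 ≤ 1)
    (hP : S.R 1 (fun d => ip μ (ml (ψ d) (u d)) (S.P2 d (u d)))) :
    S.R 1 (fun d => (∑ k, ip μ (ml (ψ d) (S.ys k d (u d))) (S.ys k d (u d))) -
      2 * ip μ (ml (ψ d * S.L2 d) (u d)) (u d)) := by
  have h1 : ∀ k, S.R 1 (fun d => 1 / 2 * ip μ (ml (ds (S.dir (Sum.inr k))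
      (ds (S.dir (Sum.inr k)) (ψ d))) (u d)) (u d)) := fun k =>
    Rm.cmul _ (R_ip ((hψ.dr _).dr _) ((sψ.dr _).dr _) (by norm_num) hu hu (by omega))
  have h2 : ∀ k, S.R 1 (fun d => ip μ (ml (ψ d * S.G k k d) (u d)) (u d)) := fun k =>
    R_ip (hψ.mul (S.BG k k)) (sψ.mul_right _) (by norm_num) hu hu (by omega)
  have h3 := (Rm.sum Finset.univ fun k _ => (h1 k).add (h2 k)).sub hP
  refine h3.congr fun d => ?_
  have e : ∀ k, ip μ (ml (ψ d) (S.ys k d (u d))) (S.ys k d (u d)) =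
      2 * ip μ (ml (ψ d * (S.wy k d * S.wy k d)) (u d)) (u d) -
        ip μ (ml (ψ d) (u d)) (S.y k d (S.y k d (u d))) +
      1 / 2 * ip μ (ml (ds (S.dir (Sum.inr k)) (ds (S.dir (Sum.inr k)) (ψ d))) (u d)) (u d) +
      ip μ (ml (ψ d * S.G k k d) (u d)) (u d) := fun k => energy _ _ _
  have e2 : ip μ (ml (ψ d * S.L2 d) (u d)) (u d) =
      ∑ k, ip μ (ml (ψ d * (S.wy k d * S.wy k d)) (u d)) (u d) := by
    unfold L2
    rw [Finset.mul_sum, map_sum, LinearMap.sum_apply, map_sum, LinearMap.sum_apply]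
  rw [Finset.sum_congr rfl fun k _ => e k, e2]
  unfold P2
  rw [map_sum]
  simp only [Finset.sum_add_distrib, Finset.sum_sub_distrib, ← Finset.mul_sum]
  ring

end Sg

end Vale.Agent.P088.R2.H820.W
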