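import Vale.Agent.P088.R2.H820.W.Wedge

/-!
# The estimate of `J = ∫ ψ (∑ y_j f_j)²`
-/

open MeasureTheory Set
open scoped ContDiff

set_option linter.unusedSectionVars false

noncomputable section

namespace Vale.Agent.P088.R2.H820.W

open Vale.Agent.P088.R2.H464.EP

namespace Sg

variable {D E ι : Type} [NormedAddCommGroup E] [NormedSpace ℝ E] [Fintype ι] [MeasurableSpace E]
  [BorelSpace E] [FiniteDimensional ℝ E] {μ : Measure E} [μ.IsAddHaarMeasure]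
  {S : Sg D E ι μ} {s t m p : ℤ} {u v : D → TE E} {g ψ lam : D → Sm E} {T T₁ T₂ T₃ : D → ℝ}

/-- `T₁ ≤ T₂` up to a remainder. -/
def Lq (S : Sg D E ι μ) (T₁ T₂ : D → ℝ) : Prop := ∃ T, S.R 1 T ∧ ∀ d, T₁ d ≤ T₂ d + T d

theorem Lq.trans (h : S.Lq T₁ T₂) (h' : S.Lq T₂ T₃) : S.Lq T₁ T₃ := by
  obtain ⟨T, hT, h⟩ := h
  obtain ⟨T', hT', h'⟩ := h'
  exact ⟨_, hT.add hT', fun d => by have := h d; have := h' d; linarith⟩

theorem Lq.of_le (h : ∀ d, T₁ d ≤ T₂ d) : S.Lq T₁ T₂ :=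
  ⟨fun _ => 0, rm_zero, fun d => by simpa using h d⟩

theorem Lq.of_R (h : S.R 1 (fun d => T₁ d - T₂ d)) : S.Lq T₁ T₂ :=
  ⟨_, h, fun d => by simp⟩

theorem Lq.of_R' (h : S.R 1 (fun d => T₁ d - T₂ d)) : S.Lq T₂ T₁ :=
  ⟨_, h.neg, fun d => by simp⟩

theorem Lq.add {T₄ : D → ℝ} (h : S.Lq T₁ T₂) (h' : S.Lq T₃ T₄) :
    S.Lq (fun d => T₁ d + T₃ d) (fun d => T₂ d + T₄ d) := by
  obtain ⟨T, hT, h⟩ := h
  obtain ⟨T', hT', h'⟩ := h'
  exact ⟨_, hT.add hT', fun d => by have := h d; have := h' d; simp only; linarith⟩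

theorem Lq.cmul {c : ℝ} (hc : 0 ≤ c) (h : S.Lq T₁ T₂) :
    S.Lq (fun d => c * T₁ d) (fun d => c * T₂ d) := by
  obtain ⟨T, hT, h⟩ := h
  exact ⟨_, hT.cmul c, fun d => by have := mul_le_mul_of_nonneg_left (h d) hc; linarith⟩

theorem Lq.neg (h : S.Lq T₁ T₂) : S.Lq (fun d => -T₂ d) (fun d => -T₁ d) := by
  obtain ⟨T, hT, h⟩ := h
  exact ⟨_, hT, fun d => by have := h d; simp only; linarith⟩

theorem Lq.congr {T₄ : D → ℝ} (h : S.Lq T₁ T₂) (h₁ : ∀ d, T₁ d = T₃ d) (h₂ : ∀ d, T₂ d = T₄ d) :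
    S.Lq T₃ T₄ := by
  have e1 : T₁ = T₃ := funext h₁
  have e2 : T₂ = T₄ := funext h₂
  rwa [e1, e2] at h

/-- The wedge term, second part. -/
theorem wedge2 (hψ : S.B (-6) ψ) (sψ : Su (S.χ 1) ψ) (pψ : ∀ d z, 0 ≤ (ψ d : E → ℝ) z) :
    S.Lq (fun _ => 0) (fun d => (∑ j, ∑ k, ip μ (ml (ψ d) (S.uu j k d)) (S.uu j k d)) -
          ∑ j, ∑ k, ip μ (ml (ψ d) (S.uu k k d)) (S.uu j j d)) := by
  have qf : ∀ j, S.Q 1 2 (S.f' j) := fun j => Q_dn (q_f' j) (by norm_num)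
  have c1 : ∀ j k, S.R 1 (fun d => ip μ (ml (ψ d) (S.rho j k d)) (S.ys k d (S.f' j d))) :=
    fun j k => R_ip hψ sψ (by norm_num) (q_rho j k) (q_ysf' k j) (by norm_num)
  have c2 : ∀ j k, S.R 1 (fun d => ip μ (ml (ψ d) (S.rho k k d)) (S.ys j d (S.f' j d))) :=
    fun j k => R_ip hψ sψ (by norm_num) (q_rho k k) (q_ysf' j j) (by norm_num)
  have c3 : ∀ j k l m, S.R 1 (fun d => ip μ (ml (ψ d) (S.rho j k d)) (S.rho l m d)) :=
    fun j k l m => R_ip hψ sψ (by norm_num) (q_rho j k) (q_rho l m) (by norm_num)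
  have s1 : ∀ j k, S.R 1 (fun d => ip μ (ml (ψ d) (S.ys k d (S.f' j d))) (S.ys k d (S.f' j d)) -
      ip μ (ml (ψ d) (S.y k d (S.f' j d))) (S.y k d (S.f' j d))) := fun j k =>
    swap_y hψ sψ k k (qf j) (qf j) (q_yf' k j) (q_ysf' k j)
  have s2 : ∀ j k, S.R 1 (fun d => ip μ (ml (ψ d) (S.ys k d (S.f' k d))) (S.ys j d (S.f' j d)) -
      ip μ (ml (ψ d) (S.y j d (S.f' k d))) (S.y k d (S.f' j d))) := fun j k =>
    swap_y hψ sψ k j (qf k) (qf j) (q_yf' j k) (q_ysf' k k)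
  have h := (Rm.sum Finset.univ fun j _ => Rm.sum Finset.univ fun k _ =>
    ((s1 j k).add ((c1 j k).cmul 2)).add (c3 j k j k)).sub
    (Rm.sum Finset.univ fun j _ => Rm.sum Finset.univ fun k _ =>
    (((s2 j k).add (c2 j k)).add (c2 k j)).add (c3 k k j j))
  refine Lq.trans (T₂ := fun d => 1 / 2 * ∑ j, ∑ k, ip μ (ml (ψ d)
    (S.y k d (S.f' j d) - S.y j d (S.f' k d))) (S.y k d (S.f' j d) - S.y j d (S.f' k d)))
    (Lq.of_le fun d => ?_) (Lq.of_R' (h.congr fun d => ?_))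
  · exact mul_nonneg (by norm_num) (Finset.sum_nonneg fun j _ => Finset.sum_nonneg fun k _ =>
      ip_ml_nonneg μ (pψ d) _)
  · rw [anti_sum (ψ d) fun j k => S.y k d (S.f' j d)]
    have e : ∀ j k l m, ip μ (ml (ψ d) (S.uu j k d)) (S.uu l m d) =
        ip μ (ml (ψ d) (S.ys k d (S.f' j d))) (S.ys m d (S.f' l d)) +
        ip μ (ml (ψ d) (S.rho j k d)) (S.ys m d (S.f' l d)) +
        ip μ (ml (ψ d) (S.rho l m d)) (S.ys k d (S.f' j d)) +
        ip μ (ml (ψ d) (S.rho j k d)) (S.rho l m d) := by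
      intro j k l m
      rw [uu_eq, uu_eq]
      simp only [map_add, LinearMap.add_apply]
      rw [ip_sym (ψ d) (S.ys k d (S.f' j d)) (S.rho l m d)]
      ring
    simp only [e]
    have e2 : ∑ j, ∑ k, ip μ (ml (ψ d) (S.y k d (S.f' j d))) (S.y j d (S.f' k d)) =
        ∑ j, ∑ k, ip μ (ml (ψ d) (S.y j d (S.f' k d))) (S.y k d (S.f' j d)) :=
      Finset.sum_congr rfl fun j _ => Finset.sum_congr rfl fun k _ => ip_sym _ _ _
    rw [e2]
    have e3 : ∑ j, ∑ k, ip μ (ml (ψ d) (S.rho j j d)) (S.ys k d (S.f' k d)) =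
        ∑ j, ∑ k, ip μ (ml (ψ d) (S.rho k k d)) (S.ys j d (S.f' j d)) := Finset.sum_comm
    simp only [Finset.sum_add_distrib, Finset.sum_sub_distrib, ← Finset.mul_sum, e3]
    ring

/-- `∑ y_j f_j`. -/
def Yf (S : Sg D E ι μ) (d : D) : TE E := ∑ j, S.y j d (S.f j d)

/-- **The estimate of `J`.** -/
theorem J_le (hψ : S.B (-6) ψ) (sψ : Su (S.χ 1) ψ) (pψ : ∀ d z, 0 ≤ (ψ d : E → ℝ) z) :
    S.Lq (fun d => ip μ (ml (ψ d) (S.Yf d)) (S.Yf d))
      (fun d => 2 * (∑ j, ip μ (ml (ψ d * S.L2 d) (S.f j d)) (S.f j d)) -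
        2 * ((∑ j, ∑ k, ip μ (ml (ψ d * S.N3 j j d) (S.ys k d (S.a d))) (S.ys k d (S.a d))) -
          ∑ j, ∑ k, ip μ (ml (ψ d * S.N3 j k d) (S.ys k d (S.a d))) (S.ys j d (S.a d)))) := by
  have qf : ∀ j, S.Q 1 2 (S.f j) := fun j => Q_dn (q_f j) (by norm_num)
  have s1 : ∀ j k, S.R 1 (fun d => ip μ (ml (ψ d) (S.ys k d (S.f j d))) (S.ys j d (S.f k d)) -
      ip μ (ml (ψ d) (S.y j d (S.f j d))) (S.y k d (S.f k d))) := fun j k =>
    swap_y hψ sψ k j (qf j) (qf k) (q_yf j j) (q_ysf k j)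
  have s2 : ∀ j, S.R 1 (fun d => (∑ k, ip μ (ml (ψ d) (S.ys k d (S.f j d)))
      (S.ys k d (S.f j d))) - 2 * ip μ (ml (ψ d * S.L2 d) (S.f j d)) (S.f j d)) := fun j =>
    energy_y hψ sψ (qf j) (by norm_num) (R_P2f hψ sψ j)
  obtain ⟨T, hT, h⟩ := wedge2 hψ sψ pψ
  have hw := wedge1 hψ sψ
  have h1 := (((Rm.sum Finset.univ fun j _ => s2 j).sub (Rm.sum Finset.univ fun j _ =>
    Rm.sum Finset.univ fun k _ => s1 j k)).sub (hw.cmul (1 / 2))).add hT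
  refine ⟨_, h1, fun d => ?_⟩
  have h2 := h d
  have e1 : ip μ (ml (ψ d) (S.Yf d)) (S.Yf d) =
      ∑ j, ∑ k, ip μ (ml (ψ d) (S.y j d (S.f j d))) (S.y k d (S.f k d)) := by
    unfold Yf
    simp only [map_sum, LinearMap.sum_apply]
    rw [Finset.sum_comm]
  have e2 := anti_sum (μ := μ) (ψ d) fun j k => S.ys k d (S.f j d)
  beta_reduce at h2 ⊢
  rw [e1, e2]
  simp only [Finset.sum_sub_distrib, ← Finset.mul_sum]
  linarith

/-- The trace of `N3`. -/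
def tN (S : Sg D E ι μ) (d : D) : Sm E := ∑ j, S.N3 j j d

theorem BtN : S.B 6 S.tN := Bd.sum _ fun j _ => BN3 j j

/-- **The estimate of `J`, final form.** -/
theorem J_le' (hψ : S.B (-6) ψ) (sψ : Su (S.χ 1) ψ) (pψ : ∀ d z, 0 ≤ (ψ d : E → ℝ) z)
    (hl : S.B 6 lam) (hN : ∀ d, ∀ z ∈ S.Ω d, ∀ v : ι → ℝ,
      ∑ j, ∑ k, (S.N3 j k d : E → ℝ) z * v j * v k ≤ (lam d : E → ℝ) z * ∑ k, v k ^ 2) :
    S.Lq (fun d => ip μ (ml (ψ d) (S.Yf d)) (S.Yf d))
      (fun d => 2 * (∑ j, ip μ (ml (ψ d * S.L2 d) (S.f j d)) (S.f j d)) -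
        4 * ip μ (ml (ψ d * (S.tN d - lam d) * S.L2 d) (S.a d)) (S.a d)) := by
  have h1 := J_le hψ sψ pψ
  have hθ : S.B 0 (fun d => ψ d * (S.tN d - lam d)) :=
    hψ.mul' (BtN.sub hl) (by norm_num)
  have h2 := energy_y (S := S) (u := S.a) (s := -1) hθ (sψ.mul_right _) (q_a (by norm_num))
    (by norm_num) (R_ip hθ (sψ.mul_right _) (by norm_num) (q_a (by norm_num))
      (q_P2 (by norm_num)) (by norm_num))
  have h3 : ∀ d, ∑ k, ip μ (ml (ψ d * (S.tN d - lam d)) (S.ys k d (S.a d))) (S.ys k d (S.a d)) ≤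
      (∑ j, ∑ k, ip μ (ml (ψ d * S.N3 j j d) (S.ys k d (S.a d))) (S.ys k d (S.a d))) -
          ∑ j, ∑ k, ip μ (ml (ψ d * S.N3 j k d) (S.ys k d (S.a d))) (S.ys j d (S.a d)) := by
    intro d
    simp only [ip_apply]
    have ii : ∀ (g : Sm E) (p q : TE E), Integrable (fun z => (ml g p).fn z * q.fn z) μ :=
      fun g p q => integrable_mul μ _ _
    rw [← integral_finsetSum _ fun k _ => ii _ _ _]
    have e1 : ∑ j, ∑ k, ∫ z, (ml (ψ d * S.N3 j j d) (S.ys k d (S.a d))).fn z *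
        (S.ys k d (S.a d)).fn z ∂μ = ∫ z, ∑ j, ∑ k, (ml (ψ d * S.N3 j j d)
          (S.ys k d (S.a d))).fn z * (S.ys k d (S.a d)).fn z ∂μ := by
      rw [integral_finsetSum _ fun j _ => integrable_finsetSum _ fun k _ => ii _ _ _]
      exact Finset.sum_congr rfl fun j _ => (integral_finsetSum _ fun k _ => ii _ _ _).symm
    have e2 : ∑ j, ∑ k, ∫ z, (ml (ψ d * S.N3 j k d) (S.ys k d (S.a d))).fn z *
        (S.ys j d (S.a d)).fn z ∂μ = ∫ z, ∑ j, ∑ k, (ml (ψ d * S.N3 j k d)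
          (S.ys k d (S.a d))).fn z * (S.ys j d (S.a d)).fn z ∂μ := by
      rw [integral_finsetSum _ fun j _ => integrable_finsetSum _ fun k _ => ii _ _ _]
      exact Finset.sum_congr rfl fun j _ => (integral_finsetSum _ fun k _ => ii _ _ _).symm
    rw [e1, e2, ← integral_sub
      (integrable_finsetSum _ fun j _ => integrable_finsetSum _ fun k _ => ii _ _ _)
      (integrable_finsetSum _ fun j _ => integrable_finsetSum _ fun k _ => ii _ _ _)]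
    refine integral_mono (integrable_finsetSum _ fun k _ => ii _ _ _)
      ((integrable_finsetSum _ fun j _ => integrable_finsetSum _ fun k _ => ii _ _ _).sub
      (integrable_finsetSum _ fun j _ => integrable_finsetSum _ fun k _ => ii _ _ _)) fun z => ?_
    simp only [ml_apply]
    by_cases hz : (ψ d : E → ℝ) z = 0
    · have z1 : ∀ g : Sm E, ((ψ d * g : Sm E) : E → ℝ) z = 0 := fun g => by
        change (ψ d : E → ℝ) z * (g : E → ℝ) z = 0
        rw [hz, zero_mul]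
      simp only [z1, zero_mul, Finset.sum_const_zero, sub_zero, le_refl]
    · have hzΩ : z ∈ S.Ω d := S.χ1 1 (by norm_num) d z (by rw [sψ d z hz]; exact one_ne_zero)
      have h4 := hN d z hzΩ fun k => (S.ys k d (S.a d)).fn z
      have z2 : ∀ g : Sm E, ((ψ d * g : Sm E) : E → ℝ) z = (ψ d : E → ℝ) z * (g : E → ℝ) z :=
        fun g => rfl
      have z3 : ((S.tN d - lam d : Sm E) : E → ℝ) z =
          (∑ j, (S.N3 j j d : E → ℝ) z) - (lam d : E → ℝ) z := by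
        unfold tN
        change ((∑ j, S.N3 j j d : Sm E) : E → ℝ) z - (lam d : E → ℝ) z = _
        congr 1
        have : ((∑ j, S.N3 j j d : Sm E) : E → ℝ) = ∑ j, (S.N3 j j d : E → ℝ) := by
          simp
        rw [this, Finset.sum_apply]
      simp only [z2, z3]
      have h5 := mul_le_mul_of_nonneg_left h4 (pψ d z)
      have e3 : ∑ k, (ψ d : E → ℝ) z * ((∑ j, (S.N3 j j d : E → ℝ) z) - (lam d : E → ℝ) z) *
          (S.ys k d (S.a d)).fn z * (S.ys k d (S.a d)).fn z =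
          (∑ j, ∑ k, (ψ d : E → ℝ) z * (S.N3 j j d : E → ℝ) z * (S.ys k d (S.a d)).fn z *
            (S.ys k d (S.a d)).fn z) - (ψ d : E → ℝ) z * ((lam d : E → ℝ) z *
              ∑ k, (S.ys k d (S.a d)).fn z ^ 2) := by
        rw [Finset.sum_comm, Finset.mul_sum, Finset.mul_sum, ← Finset.sum_sub_distrib]
        refine Finset.sum_congr rfl fun k _ => ?_
        rw [← Finset.sum_mul, ← Finset.sum_mul, ← Finset.mul_sum]
        ring
      have e4 : ∑ j, ∑ k, (ψ d : E → ℝ) z * (S.N3 j k d : E → ℝ) z * (S.ys k d (S.a d)).fn z *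
            (S.ys j d (S.a d)).fn z = (ψ d : E → ℝ) z * ∑ j, ∑ k, (S.N3 j k d : E → ℝ) z *
              (S.ys j d (S.a d)).fn z * (S.ys k d (S.a d)).fn z := by
        rw [Finset.mul_sum]
        refine Finset.sum_congr rfl fun j _ => ?_
        rw [Finset.mul_sum]
        exact Finset.sum_congr rfl fun k _ => by ring
      rw [e3, e4]
      linarith
  obtain ⟨T, hT, h1⟩ := h1
  refine ⟨_, hT.add (h2.cmul (-2)), fun d => ?_⟩
  have h4 := h1 d
  have h5 := h3 d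
  beta_reduce at h4 ⊢
  linarith

end Sg

end Vale.Agent.P088.R2.H820.W
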