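import Vale.Agent.P088.R2.H820.W.Alg

/-!
# The setting; first and second order bounds

`x i`, `y j` are the dressed derivatives in the two groups of variables, `P1 = ∑ x i ^ 2`,
`P2 = ∑ y j ^ 2`. `a` is quantum in `x` and semiclassical in `y`.
-/

open MeasureTheory Set
open scoped ContDiff

set_option linter.unusedSectionVars false

noncomputable section

namespace Vale.Agent.P088.R2.H820.W

open Vale.Agent.P088.R2.H464.EP

/-- The setting. -/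
structure Sg (D E ι : Type) [NormedAddCommGroup E] [NormedSpace ℝ E] [Fintype ι]
    [MeasurableSpace E] [BorelSpace E] (μ : Measure E) [IsFiniteMeasureOnCompacts μ] extends
    Fa D E (ι ⊕ ι) where
  r : D → ℝ
  W : D → Sm E
  χ : ℕ → D → Sm E
  a : D → TE E
  hr : ∀ d, 0 ≤ r d
  hW : ∀ k, Bd toFa 2 (fun d => wk dir (W d) k)
  hχ : ∀ j ≤ 3, Bd toFa 0 (χ j)
  χb : ∀ j ≤ 3, ∀ d z, |(χ j d : E → ℝ) z| ≤ 1
  χs : ∀ j ≤ 2, Su (χ (j + 1)) (χ j)
  χΩ : ∀ d z, (χ 3 d : E → ℝ) z ≠ 0 → z ∈ Ω d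
  qa : Qd toFa μ r (χ 3) (-1) a
  qu : ∀ i, Qd toFa μ r (χ 3) 0 (fun d => Xs dir (W d) (Sum.inl i) (a d))
  p1 : Qd toFa μ r (χ 3) 1 (fun d => ∑ i, X dir (W d) (Sum.inl i)
    (X dir (W d) (Sum.inl i) (a d)))
  p2 : Qd toFa μ r (χ 3) 1 (fun d => ∑ j, X dir (W d) (Sum.inr j)
    (X dir (W d) (Sum.inr j) (a d)))

namespace Sg

variable {D E ι : Type} [NormedAddCommGroup E] [NormedSpace ℝ E] [Fintype ι] [MeasurableSpace E]
  [BorelSpace E] [FiniteDimensional ℝ E] {μ : Measure E} [μ.IsAddHaarMeasure]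
  (S : Sg D E ι μ)

/-- `∂_{x_i} + W`. -/
def x (i : ι) (d : D) : Op E := X S.dir (S.W d) (Sum.inl i)

/-- `W - ∂_{x_i}`. -/
def xs (i : ι) (d : D) : Op E := Xs S.dir (S.W d) (Sum.inl i)

/-- `∂_{y_j} + W`. -/
def y (j : ι) (d : D) : Op E := X S.dir (S.W d) (Sum.inr j)

/-- `W - ∂_{y_j}`. -/
def ys (j : ι) (d : D) : Op E := Xs S.dir (S.W d) (Sum.inr j)

/-- `W_{x_i}`. -/
def wx (i : ι) (d : D) : Sm E := wk S.dir (S.W d) (Sum.inl i)

/-- `W_{y_j}`. -/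
def wy (j : ι) (d : D) : Sm E := wk S.dir (S.W d) (Sum.inr j)

/-- `W_{x_i x_l}`. -/
def H (i l : ι) (d : D) : Sm E := ck S.dir (S.W d) (Sum.inl i) (Sum.inl l)

/-- `W_{x_i y_j}`. -/
def M (i j : ι) (d : D) : Sm E := ck S.dir (S.W d) (Sum.inl i) (Sum.inr j)

/-- `W_{y_j y_k}`. -/
def G (j k : ι) (d : D) : Sm E := ck S.dir (S.W d) (Sum.inr j) (Sum.inr k)

/-- The order of a family of test functions. -/
abbrev Q (j : ℕ) (s : ℤ) (X : D → TE E) : Prop := Qd S.toFa μ S.r (S.χ j) s X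

/-- The order of a family of functions. -/
abbrev B (m : ℤ) (g : D → Sm E) : Prop := Bd S.toFa m g

/-- The order of a remainder. -/
abbrev R (m : ℤ) (T : D → ℝ) : Prop := Rm S.toFa S.r m T

/-- `∂_{x_i}`. -/
def dx (i : ι) : Op E := dv (S.dir (Sum.inl i))

/-- `∂_{y_j}`. -/
def dy (j : ι) : Op E := dv (S.dir (Sum.inr j))

/-- `P_1`. -/
def P1 (d : D) (u : TE E) : TE E := ∑ i, S.x i d (S.x i d u)

/-- `P_2`. -/
def P2 (d : D) (u : TE E) : TE E := ∑ j, S.y j d (S.y j d u)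

theorem Bwx (i : ι) : S.B 2 (S.wx i) := S.hW _
theorem Bwy (j : ι) : S.B 2 (S.wy j) := S.hW _
theorem BH (i l : ι) : S.B 2 (S.H i l) := (S.hW (Sum.inl l)).dr _
theorem BM (i l : ι) : S.B 2 (S.M i l) := (S.hW (Sum.inr l)).dr _
theorem BG (i l : ι) : S.B 2 (S.G i l) := (S.hW (Sum.inr l)).dr _

theorem χ1 (j : ℕ) (hj : j ≤ 3) (d : D) (z : E) (hz : (S.χ j d : E → ℝ) z ≠ 0) :
    z ∈ S.Ω d := by
  interval_cases j
  · exact S.χΩ d z (by
      have h1 := S.χs 0 (by norm_num) d z hz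
      have h2 := S.χs 1 (by norm_num) d z (by rw [h1]; exact one_ne_zero)
      have h3 := S.χs 2 (by norm_num) d z (by rw [h2]; exact one_ne_zero)
      rw [h3]; exact one_ne_zero)
  · exact S.χΩ d z (by
      have h2 := S.χs 1 (by norm_num) d z hz
      have h3 := S.χs 2 (by norm_num) d z (by rw [h2]; exact one_ne_zero)
      rw [h3]; exact one_ne_zero)
  · exact S.χΩ d z (by
      have h3 := S.χs 2 (by norm_num) d z hz
      rw [h3]; exact one_ne_zero)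
  · exact S.χΩ d z hz

variable {S}
variable {j : ℕ} {s t m p : ℤ} {u v : D → TE E} {g : D → Sm E} {T : D → ℝ}

theorem Q_dn (h : S.Q (j + 1) s u) (hj : j ≤ 2) : S.Q j s u :=
  Qd.level h (S.χb j (by omega)) (S.χs j hj)

theorem Q_ml (h : S.Q j s u) (hg : S.B m g) (hj : j ≤ 3) :
    S.Q j (s + m) (fun d => ml (g d) (u d)) := Qd.mu (S.χ1 j hj) h hg.b0

theorem Q_mono (h : S.Q j s u) (hm : s ≤ t) : S.Q j t u := Qd.mono S.hr h hm

theorem Q_ml' (h : S.Q j s u) (hg : S.B m g) (hj : j ≤ 3) (hm : s + m ≤ t) :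
    S.Q j t (fun d => ml (g d) (u d)) := Q_mono (Q_ml h hg hj) hm

theorem R_mono (h : S.R m T) (hm : m ≤ p) : S.R p T := Rm.mono S.hr h hm

theorem R_ip (hg : S.B m g) (sg : Su (S.χ j) g) (hj : j ≤ 3) (hu : S.Q j s u) (hv : S.Q j t v)
    (hp : m + s + t ≤ p) : S.R p (fun d => ip μ (ml (g d) (u d)) (v d)) :=
  rm_ip S.hr (S.χ1 j hj) hg sg hu hv hp

/-- `nm` of a localized function as a product with the weight `χ²`. -/
theorem nm_chi (χ : Sm E) (f : TE E) : nm μ (ml χ f) = ip μ (ml (χ * χ) f) f := by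
  unfold nm
  rw [← ip_ml, ml_ml]

theorem Q_of_R (h : S.R (2 * s) (fun d => nm μ (ml (S.χ j d) (u d)))) : S.Q j s u := by
  obtain ⟨C, hC, h⟩ := h
  exact ⟨C, hC, fun d => (le_abs_self _).trans (h d)⟩

theorem Q_of_R_le (h : S.R (2 * s) T)
    (hT : ∀ d, nm μ (ml (S.χ j d) (u d)) ≤ T d) : S.Q j s u := by
  obtain ⟨C, hC, h⟩ := h
  exact ⟨C, hC, fun d => (hT d).trans ((le_abs_self _).trans (h d))⟩

theorem R_of_Q (h : S.Q j s u) : S.R (2 * s) (fun d => nm μ (ml (S.χ j d) (u d))) := by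
  obtain ⟨C, hC, h⟩ := h
  exact ⟨C, hC, fun d => by rw [abs_of_nonneg (nm_nonneg _)]; exact h d⟩

/-- The weight `χ_j²`. -/
theorem Bχχ (hj : j ≤ 3) : S.B 0 (fun d => S.χ j d * S.χ j d) :=
  (S.hχ j hj).mul' (S.hχ j hj) (by norm_num)

theorem Sχχ (hj : j ≤ 2) : Su (S.χ (j + 1)) (fun d => S.χ j d * S.χ j d) :=
  (S.χs j hj).mul_left _

end Sg

end Vale.Agent.P088.R2.H820.W
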