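import Vale.Agent.P088.R2.H820.W.Lev

/-!
# First order bounds (cut-off `χ 2`), second order bounds (cut-off `χ 1`)
-/

open MeasureTheory Set
open scoped ContDiff

set_option linter.unusedSectionVars false

noncomputable section

namespace Vale.Agent.P088.R2.H820.W

open Vale.Agent.P088.R2.H464.EP

namespace Sg

variable {D E ι : Type} [NormedAddCommGroup E] [NormedSpace ℝ E] [Fintype ι] [MeasurableSpace E]
  [BorelSpace E] [FiniteDimensional ℝ E] {μ : Measure E} [μ.IsAddHaarMeasure]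
  {S : Sg D E ι μ} {j : ℕ} {s t m p : ℤ} {u v : D → TE E} {g : D → Sm E} {T : D → ℝ}

theorem nm_sub (f g : TE E) : nm μ (f - g) = nm μ f - 2 * ip μ f g + nm μ g := by
  unfold nm
  simp only [map_sub, LinearMap.sub_apply]
  rw [ip_comm μ g f]; ring

/-- The two parts of `xs a`. -/
theorem split (k : ι ⊕ ι) (χ : Sm E) (W : Sm E) (dir : ι ⊕ ι → E) (f : TE E) :
    nm μ (ml χ (ml (wk dir W k) f)) + nm μ (ml χ (dv (dir k) f)) =
      nm μ (ml χ (Xs dir W k f)) -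
        ip μ (ml (ds (dir k) (χ * χ * wk dir W k)) f) f := by
  have h1 : nm μ (ml χ (Xs dir W k f)) = nm μ (ml χ (ml (wk dir W k) f)) -
      2 * ip μ (ml χ (ml (wk dir W k) f)) (ml χ (dv (dir k) f)) +
        nm μ (ml χ (dv (dir k) f)) := by
    rw [Xs_eq, map_sub, nm_sub]
  have h2 : ip μ (ml χ (ml (wk dir W k) f)) (ml χ (dv (dir k) f)) =
      ip μ (ml (χ * χ * wk dir W k) (dv (dir k) f)) f := by
    rw [ml_ml, ip_ml, ml_ml, ip_comm]
    congr 2
    rw [show χ * wk dir W k * χ = χ * χ * wk dir W k by ring]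
  rw [h1, h2, half]
  ring

/-- `W_x a = O(1)`, `∂_x a = O(1)`. -/
theorem first_x (i : ι) : S.Q 2 0 (fun d => ml (S.wx i d) (S.a d)) ∧
    S.Q 2 0 (fun d => dv (S.dir (Sum.inl i)) (S.a d)) := by
  have h1 : S.R (2 * 0) (fun d => nm μ (ml (S.χ 2 d) (S.xs i d (S.a d)))) :=
    R_of_Q (Q_dn (S.qu i) (by norm_num))
  have h2 : S.R (2 * 0) (fun d => ip μ (ml (ds (S.dir (Sum.inl i))
      (S.χ 2 d * S.χ 2 d * S.wx i d)) (S.a d)) (S.a d)) :=
    R_ip (((Bχχ (by norm_num)).mul' (S.Bwx i) (by norm_num : (0 : ℤ) + 2 ≤ 2)).dr _)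
      (((Sχχ (by norm_num)).mul_right _).dr _) (by norm_num) S.qa S.qa (by norm_num)
  have h3 := h1.sub h2
  have h4 := fun d => split (μ := μ) (Sum.inl i) (S.χ 2 d) (S.W d) S.dir (S.a d)
  refine ⟨Q_of_R_le h3 fun d => ?_, Q_of_R_le h3 fun d => ?_⟩
  · have := h4 d
    have h5 := nm_nonneg (μ := μ) (ml (S.χ 2 d) (dv (S.dir (Sum.inl i)) (S.a d)))
    change nm μ (ml (S.χ 2 d) (ml (wk S.dir (S.W d) (Sum.inl i)) (S.a d))) ≤
      nm μ (ml (S.χ 2 d) (Xs S.dir (S.W d) (Sum.inl i) (S.a d))) - ip μ (ml (ds (S.dir (Sum.inl i))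
        (S.χ 2 d * S.χ 2 d * wk S.dir (S.W d) (Sum.inl i))) (S.a d)) (S.a d)
    linarith
  · have := h4 d
    have h5 := nm_nonneg (μ := μ) (ml (S.χ 2 d) (ml (wk S.dir (S.W d) (Sum.inl i)) (S.a d)))
    change nm μ (ml (S.χ 2 d) (dv (S.dir (Sum.inl i)) (S.a d))) ≤
      nm μ (ml (S.χ 2 d) (Xs S.dir (S.W d) (Sum.inl i) (S.a d))) - ip μ (ml (ds (S.dir (Sum.inl i))
        (S.χ 2 d * S.χ 2 d * wk S.dir (S.W d) (Sum.inl i))) (S.a d)) (S.a d)
    linarith

theorem q_x (i : ι) : S.Q 2 0 (fun d => S.x i d (S.a d)) := by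
  have h := (first_x (S := S) i).1.add (first_x (S := S) i).2
  refine h.congr fun d => ?_
  rw [add_comm]; rfl

theorem q_xs (i : ι) : S.Q 2 0 (fun d => S.xs i d (S.a d)) := Q_dn (S.qu i) (by norm_num)

/-- Energy in the variables `y`. -/
theorem en_y (hj : j ≤ 2) (hu : S.Q (j + 1) t u) (h2 : 2 * t + 4 ≤ 2 * s)
    (hP : S.R (2 * s) (fun d => ip μ (ml (S.χ j d * S.χ j d) (u d)) (S.P2 d (u d)))) (k : ι) :
    S.Q j s (fun d => dv (S.dir (Sum.inr k)) (u d)) := by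
  have h1 : ∀ l : ι, S.R (2 * s) (fun d =>
      ip μ (ml (S.χ j d * S.χ j d * (S.wy l d * S.wy l d)) (u d)) (u d) +
        1 / 2 * ip μ (ml (ds (S.dir (Sum.inr l)) (ds (S.dir (Sum.inr l))
          (S.χ j d * S.χ j d))) (u d)) (u d) -
        ip μ (ml (ds (S.dir (Sum.inr l)) (S.χ j d * S.χ j d) * S.wy l d) (u d)) (u d)) := by
    intro l
    have b1 := Bχχ (S := S) (j := j) (by omega)
    have s1 := Sχχ (S := S) (j := j) hj
    refine Rm.sub (Rm.add ?_ (Rm.cmul _ ?_)) ?_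
    · exact R_ip (b1.mul' ((S.Bwy l).mul' (S.Bwy l) (by norm_num : (2 : ℤ) + 2 ≤ 4))
        (by norm_num : (0 : ℤ) + 4 ≤ 4)) (s1.mul_right _) (by omega) hu hu (by omega)
    · exact R_ip ((b1.dr _).dr _) ((s1.dr _).dr _) (by omega) hu hu (by omega)
    · exact R_ip ((b1.dr _).mul' (S.Bwy l) (by norm_num : (0 : ℤ) + 2 ≤ 2))
        ((s1.dr _).mul_right _) (by omega) hu hu (by omega)
  have h3 := (Rm.sum Finset.univ fun l _ => h1 l).sub hP
  refine Q_of_R_le h3 fun d => ?_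
  have h4 : ∑ l, nm μ (ml (S.χ j d) (dv (S.dir (Sum.inr l)) (u d))) =
      ∑ l, (ip μ (ml (S.χ j d * S.χ j d * (S.wy l d * S.wy l d)) (u d)) (u d) +
        1 / 2 * ip μ (ml (ds (S.dir (Sum.inr l)) (ds (S.dir (Sum.inr l))
          (S.χ j d * S.χ j d))) (u d)) (u d) -
        ip μ (ml (ds (S.dir (Sum.inr l)) (S.χ j d * S.χ j d) * S.wy l d) (u d)) (u d)) -
        ip μ (ml (S.χ j d * S.χ j d) (u d)) (S.P2 d (u d)) := by
    unfold P2
    rw [map_sum, ← Finset.sum_sub_distrib]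
    refine Finset.sum_congr rfl fun l _ => ?_
    rw [nm_chi, energy' (W := S.W d)]
    unfold y wy
    ring
  rw [← h4]
  exact Finset.single_le_sum (f := fun l => nm μ (ml (S.χ j d) (dv (S.dir (Sum.inr l)) (u d))))
    (fun l _ => nm_nonneg _) (Finset.mem_univ k)

theorem q_P1 (hj : j ≤ 3) : S.Q j 1 (fun d => S.P1 d (S.a d)) := by
  interval_cases j
  · exact Q_dn (Q_dn (Q_dn S.p1 (by norm_num)) (by norm_num)) (by norm_num)
  · exact Q_dn (Q_dn S.p1 (by norm_num)) (by norm_num)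
  · exact Q_dn S.p1 (by norm_num)
  · exact S.p1

theorem q_P2 (hj : j ≤ 3) : S.Q j 1 (fun d => S.P2 d (S.a d)) := by
  interval_cases j
  · exact Q_dn (Q_dn (Q_dn S.p2 (by norm_num)) (by norm_num)) (by norm_num)
  · exact Q_dn (Q_dn S.p2 (by norm_num)) (by norm_num)
  · exact Q_dn S.p2 (by norm_num)
  · exact S.p2

theorem q_a (hj : j ≤ 3) : S.Q j (-1) S.a := by
  interval_cases j
  · exact Q_dn (Q_dn (Q_dn S.qa (by norm_num)) (by norm_num)) (by norm_num)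
  · exact Q_dn (Q_dn S.qa (by norm_num)) (by norm_num)
  · exact Q_dn S.qa (by norm_num)
  · exact S.qa

theorem q_dy (k : ι) : S.Q 2 1 (fun d => dv (S.dir (Sum.inr k)) (S.a d)) := by
  refine en_y (by norm_num) S.qa (by norm_num) ?_ k
  exact R_ip (Bχχ (by norm_num)) (Sχχ (by norm_num)) (by norm_num) S.qa
    (q_P2 (by norm_num)) (by norm_num)

theorem q_wy (k : ι) (hj : j ≤ 3) : S.Q j 1 (fun d => ml (S.wy k d) (S.a d)) :=
  Q_ml' (q_a hj) (S.Bwy k) hj (by norm_num)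

theorem q_y (k : ι) : S.Q 2 1 (fun d => S.y k d (S.a d)) :=
  ((q_dy k).add (q_wy k (by norm_num))).congr fun _ => rfl

theorem q_ys (k : ι) : S.Q 2 1 (fun d => S.ys k d (S.a d)) :=
  ((q_wy k (by norm_num)).sub (q_dy k)).congr fun _ => rfl

end Sg

end Vale.Agent.P088.R2.H820.W
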