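import Vale.Agent.P088.R2.H820.W.Lev2

/-!
# Second order bounds (cut-off `χ 1`)
-/

open MeasureTheory Set
open scoped ContDiff

set_option linter.unusedSectionVars false

noncomputable section

namespace Vale.Agent.P088.R2.H820.W

open Vale.Agent.P088.R2.H464.EP

namespace Sg

variable {D E ι : Type} [NormedAddCommGroup E] [NormedSpace ℝ E] [Fintype ι] [MeasurableSpace E]
  [BorelSpace E] [FiniteDimensional ℝ E] {μ : Measure E} [μ.IsAddHaarMeasure]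
  {S : Sg D E ι μ} {j : ℕ} {s t m p : ℤ} {u v : D → TE E} {g : D → Sm E} {T : D → ℝ}

theorem R_χ (hu : S.Q j s u) (hv : S.Q j t v) (hp : s + t ≤ p) :
    S.R p (fun d => ip μ (ml (S.χ j d * S.χ j d) (u d)) (v d)) := by
  refine ((rm_ip0 S.hr hu hv).mono S.hr hp).congr fun d => ?_
  rw [← ip_ml, ml_ml]

/-- The Laplacian in `x`. -/
def Dx (S : Sg D E ι μ) (d : D) : TE E :=
  ∑ i, dv (S.dir (Sum.inl i)) (dv (S.dir (Sum.inl i)) (S.a d))

theorem q_Dx : S.Q 2 2 S.Dx := by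
  have h1 : S.Q 2 2 (fun d => S.P1 d (S.a d)) := Q_mono (q_P1 (by norm_num)) (by norm_num)
  have h2 : ∀ i, S.Q 2 2 (fun d => ml (S.wx i d) (dv (S.dir (Sum.inl i)) (S.a d))) := fun i =>
    Q_ml' (first_x i).2 (S.Bwx i) (by norm_num) (by norm_num)
  have h3 : ∀ i, S.Q 2 2 (fun d => ml (S.wx i d) (ml (S.wx i d) (S.a d))) := fun i =>
    Q_ml' (first_x i).1 (S.Bwx i) (by norm_num) (by norm_num)
  have h4 : ∀ i, S.Q 2 2 (fun d => ml (S.H i i d) (S.a d)) := fun i =>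
    Q_ml' (q_a (by norm_num)) (S.BH i i) (by norm_num) (by norm_num)
  have h5 : S.Q 2 2 (fun d => ∑ i, ((2 : ℝ) • ml (S.wx i d) (dv (S.dir (Sum.inl i)) (S.a d)) +
      (ml (S.wx i d) (ml (S.wx i d) (S.a d)) + ml (S.H i i d) (S.a d)))) :=
    Qd.sum _ fun i _ => ((h2 i).cmul 2).add ((h3 i).add (h4 i))
  refine (h1.sub h5).congr fun d => ?_
  unfold P1 Dx
  rw [← Finset.sum_sub_distrib]
  refine Finset.sum_congr rfl fun i _ => ?_
  unfold x
  rw [X_eq, X_eq, map_add, map_add, dv_ml', two_smul]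
  unfold wx H
  have e : ds (S.dir (Sum.inl i)) (wk S.dir (S.W d) (Sum.inl i)) =
    ck S.dir (S.W d) (Sum.inl i) (Sum.inl i) := rfl
  rw [e]
  abel

/-- Second derivatives in `x`. -/
theorem q_dxdx (i l : ι) :
    S.Q 1 2 (fun d => dv (S.dir (Sum.inl l)) (dv (S.dir (Sum.inl i)) (S.a d))) := by
  have b1 := Bχχ (S := S) (j := 1) (by norm_num)
  have s1 := Sχχ (S := S) (j := 1) (by norm_num)
  have h1 : S.R (2 * 2) (fun d => nm μ (ml (S.χ 1 d) (S.Dx d))) :=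
    R_of_Q (Q_dn q_Dx (by norm_num))
  have h2 : ∀ i, S.R (2 * 2) (fun d => ip μ (ml (ds (S.dir (Sum.inl i)) (S.χ 1 d * S.χ 1 d))
      (dv (S.dir (Sum.inl i)) (S.a d))) (S.Dx d)) := fun i =>
    R_ip (b1.dr _) (s1.dr _) (by norm_num) (first_x i).2 q_Dx (by norm_num)
  have h3 : ∀ i l, S.R (2 * 2) (fun d => 1 / 2 * ip μ (ml (ds (S.dir (Sum.inl l))
      (ds (S.dir (Sum.inl l)) (S.χ 1 d * S.χ 1 d))) (dv (S.dir (Sum.inl i)) (S.a d)))
        (dv (S.dir (Sum.inl i)) (S.a d))) := fun i l =>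
    Rm.cmul _ (R_ip ((b1.dr _).dr _) ((s1.dr _).dr _) (by norm_num) (first_x i).2 (first_x i).2
      (by norm_num))
  have h4 := (h1.add (Rm.sum Finset.univ fun i _ => h2 i)).add
    (Rm.sum Finset.univ fun i _ => Rm.sum Finset.univ fun l _ => h3 i l)
  refine Q_of_R_le h4 fun d => ?_
  set v := fun i => S.dir (Sum.inl i) with hv
  set χ := S.χ 1 d with hχ
  set a := S.a d with ha
  have e1 : ∀ i l, nm μ (ml χ (dv (v l) (dv (v i) a))) =
      ip μ (ml (χ * χ) (dv (v i) (dv (v i) a))) (dv (v l) (dv (v l) a)) +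
        ip μ (ml (ds (v i) (χ * χ)) (dv (v i) a)) (dv (v l) (dv (v l) a)) +
        1 / 2 * ip μ (ml (ds (v l) (ds (v l) (χ * χ))) (dv (v i) a)) (dv (v i) a) := by
    intro i l
    rw [nm_chi, second, half]
    ring
  have e2 : ∑ i, ∑ l, nm μ (ml χ (dv (v l) (dv (v i) a))) =
      nm μ (ml χ (S.Dx d)) + (∑ i, ip μ (ml (ds (v i) (χ * χ)) (dv (v i) a)) (S.Dx d)) +
        ∑ i, ∑ l, 1 / 2 * ip μ (ml (ds (v l) (ds (v l) (χ * χ))) (dv (v i) a)) (dv (v i) a) := by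
    simp only [e1, Finset.sum_add_distrib]
    congr 2
    · rw [nm_chi]
      unfold Dx
      simp only [map_sum, LinearMap.sum_apply]
      rw [Finset.sum_comm]
    · refine Finset.sum_congr rfl fun i _ => ?_
      unfold Dx
      rw [map_sum]
  rw [← e2]
  refine le_trans ?_ (Finset.single_le_sum
    (f := fun i => ∑ l, nm μ (ml χ (dv (v l) (dv (v i) a))))
    (fun i _ => Finset.sum_nonneg fun l _ => nm_nonneg _) (Finset.mem_univ i))
  exact Finset.single_le_sum (f := fun l => nm μ (ml χ (dv (v l) (dv (v i) a))))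
    (fun l _ => nm_nonneg _) (Finset.mem_univ l)

theorem q_wxdx (i l : ι) : S.Q 1 2 (fun d => ml (S.wx i d) (dv (S.dir (Sum.inl l)) (S.a d))) :=
  Q_ml' (Q_dn (first_x l).2 (by norm_num)) (S.Bwx i) (by norm_num) (by norm_num)

theorem q_Ha (i l : ι) : S.Q 1 2 (fun d => ml (S.H i l d) (S.a d)) :=
  Q_ml' (q_a (by norm_num)) (S.BH i l) (by norm_num) (by norm_num)

theorem q_Ma (i l : ι) (hj : j ≤ 3) : S.Q j 1 (fun d => ml (S.M i l d) (S.a d)) :=
  Q_ml' (q_a hj) (S.BM i l) hj (by norm_num)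

theorem q_dx_x (i l : ι) : S.Q 1 2 (fun d => dv (S.dir (Sum.inl l)) (S.x i d (S.a d))) := by
  refine ((q_dxdx i l).add ((q_wxdx i l).add (q_Ha l i))).congr fun d => ?_
  unfold x
  rw [X_eq, map_add, dv_ml']
  rfl

theorem q_dx_xs (i l : ι) : S.Q 1 2 (fun d => dv (S.dir (Sum.inl l)) (S.xs i d (S.a d))) := by
  refine (((q_wxdx i l).add (q_Ha l i)).sub (q_dxdx i l)).congr fun d => ?_
  unfold xs
  rw [Xs_eq, map_sub, dv_ml']
  rfl

theorem up_x (hu : S.Q 1 0 u) (l : ι) (h : S.Q 1 2 (fun d => dv (S.dir (Sum.inl l)) (u d))) :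
    S.Q 1 2 (fun d => S.x l d (u d)) ∧ S.Q 1 2 (fun d => S.xs l d (u d)) := by
  have h1 : S.Q 1 2 (fun d => ml (S.wx l d) (u d)) :=
    Q_ml' hu (S.Bwx l) (by norm_num) (by norm_num)
  exact ⟨(h.add h1).congr fun _ => rfl, (h1.sub h).congr fun _ => rfl⟩

theorem up_y (hu : S.Q 1 0 u) (l : ι) (h : S.Q 1 2 (fun d => dv (S.dir (Sum.inr l)) (u d))) :
    S.Q 1 2 (fun d => S.y l d (u d)) ∧ S.Q 1 2 (fun d => S.ys l d (u d)) := by
  have h1 : S.Q 1 2 (fun d => ml (S.wy l d) (u d)) :=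
    Q_ml' hu (S.Bwy l) (by norm_num) (by norm_num)
  exact ⟨(h.add h1).congr fun _ => rfl, (h1.sub h).congr fun _ => rfl⟩

theorem q_x_x (i l : ι) : S.Q 1 2 (fun d => S.x l d (S.x i d (S.a d))) :=
  (up_x (Q_dn (q_x i) (by norm_num)) l (q_dx_x i l)).1

theorem q_xs_x (i l : ι) : S.Q 1 2 (fun d => S.xs l d (S.x i d (S.a d))) :=
  (up_x (Q_dn (q_x i) (by norm_num)) l (q_dx_x i l)).2

theorem q_x_xs (i l : ι) : S.Q 1 2 (fun d => S.x l d (S.xs i d (S.a d))) :=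
  (up_x (Q_dn (q_xs i) (by norm_num)) l (q_dx_xs i l)).1

theorem M_symm (i l : ι) (d : D) : ck S.dir (S.W d) (Sum.inr l) (Sum.inl i) = S.M i l d :=
  ck_symm _ _ _ _

theorem H_symm (i l : ι) (d : D) : S.H i l d = S.H l i d := ck_symm _ _ _ _

theorem G_symm (i l : ι) (d : D) : S.G i l d = S.G l i d := ck_symm _ _ _ _

/-- `[P₂, xs]`. -/
theorem P2_xs (i : ι) (d : D) (f : TE E) : S.P2 d (S.xs i d f) = S.xs i d (S.P2 d f) +
    ∑ l, ((4 : ℝ) • ml (S.M i l d) (S.y l d f) +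
      (2 : ℝ) • ml (ds (S.dir (Sum.inr l)) (S.M i l d)) f) := by
  unfold P2
  rw [map_sum, ← Finset.sum_add_distrib]
  refine Finset.sum_congr rfl fun l _ => ?_
  unfold y xs
  rw [X_Xs', map_add, X_Xs', map_smul, X_ml, M_symm]
  have : (4 : ℝ) = 2 + 2 := by norm_num
  rw [this, add_smul, smul_add]
  abel

theorem P2_x (i : ι) (d : D) (f : TE E) : S.P2 d (S.x i d f) = S.x i d (S.P2 d f) := by
  unfold P2
  rw [map_sum]
  refine Finset.sum_congr rfl fun l _ => ?_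
  unfold y x
  rw [X_X' (Sum.inr l) (Sum.inl i) f, X_X' (Sum.inr l) (Sum.inl i)]

theorem q_dy_xs (i l : ι) : S.Q 1 2 (fun d => dv (S.dir (Sum.inr l)) (S.xs i d (S.a d))) := by
  have b1 := Bχχ (S := S) (j := 1) (by norm_num)
  have s1 := Sχχ (S := S) (j := 1) (by norm_num)
  refine en_y (by norm_num) (q_xs i) (by norm_num) ?_ l
  have h1 : S.R (2 * 2) (fun d => ip μ (ml (S.χ 1 d * S.χ 1 d) (S.x i d (S.xs i d (S.a d))))
      (S.P2 d (S.a d))) := R_χ (q_x_xs i i) (q_P2 (by norm_num)) (by norm_num)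
  have h2 : S.R (2 * 2) (fun d => ip μ (ml (ds (S.dir (Sum.inl i)) (S.χ 1 d * S.χ 1 d))
      (S.xs i d (S.a d))) (S.P2 d (S.a d))) :=
    R_ip (b1.dr _) (s1.dr _) (by norm_num) (q_xs i) (q_P2 (by norm_num)) (by norm_num)
  have h3 : ∀ k, S.R (2 * 2) (fun d => ip μ (ml (S.χ 1 d * S.χ 1 d * S.M i k d)
      (S.xs i d (S.a d))) (S.y k d (S.a d))) := fun k =>
    R_ip (b1.mul' (S.BM i k) (by norm_num : (0 : ℤ) + 2 ≤ 2)) (s1.mul_right _) (by norm_num)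
      (q_xs i) (q_y k) (by norm_num)
  have h4 : ∀ k, S.R (2 * 2) (fun d => ip μ (ml (S.χ 1 d * S.χ 1 d *
      ds (S.dir (Sum.inr k)) (S.M i k d)) (S.xs i d (S.a d))) (S.a d)) := fun k =>
    R_ip (b1.mul' ((S.BM i k).dr _) (by norm_num : (0 : ℤ) + 2 ≤ 2)) (s1.mul_right _)
      (by norm_num) (q_xs i) (q_a (by norm_num)) (by norm_num)
  have h5 := (h1.add h2).add (Rm.sum Finset.univ fun k _ => ((h3 k).cmul 4).add ((h4 k).cmul 2))
  refine h5.congr fun d => ?_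
  rw [P2_xs, map_add, map_sum]
  have e1 : ip μ (ml (S.χ 1 d * S.χ 1 d) (S.xs i d (S.a d))) (S.xs i d (S.P2 d (S.a d))) =
      ip μ (ml (S.χ 1 d * S.χ 1 d) (S.x i d (S.xs i d (S.a d)))) (S.P2 d (S.a d)) +
      ip μ (ml (ds (S.dir (Sum.inl i)) (S.χ 1 d * S.χ 1 d)) (S.xs i d (S.a d)))
        (S.P2 d (S.a d)) := by
    unfold xs x
    rw [← ip_X, X_ml, map_add, LinearMap.add_apply]
  rw [e1]
  congr 1
  refine Finset.sum_congr rfl fun k _ => ?_
  rw [map_add, map_smul, map_smul, smul_eq_mul, smul_eq_mul]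
  congr 2
  · rw [← ip_ml, ml_ml, mul_comm (S.M i k d)]
  · rw [← ip_ml, ml_ml, mul_comm (ds (S.dir (Sum.inr k)) (S.M i k d))]

theorem q_dy_x (i l : ι) : S.Q 1 2 (fun d => dv (S.dir (Sum.inr l)) (S.x i d (S.a d))) := by
  have b1 := Bχχ (S := S) (j := 1) (by norm_num)
  have s1 := Sχχ (S := S) (j := 1) (by norm_num)
  refine en_y (by norm_num) (q_x i) (by norm_num) ?_ l
  have h1 : S.R (2 * 2) (fun d => ip μ (ml (S.χ 1 d * S.χ 1 d) (S.xs i d (S.x i d (S.a d))))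
      (S.P2 d (S.a d))) := R_χ (q_xs_x i i) (q_P2 (by norm_num)) (by norm_num)
  have h2 : S.R (2 * 2) (fun d => ip μ (ml (ds (S.dir (Sum.inl i)) (S.χ 1 d * S.χ 1 d))
      (S.x i d (S.a d))) (S.P2 d (S.a d))) :=
    R_ip (b1.dr _) (s1.dr _) (by norm_num) (q_x i) (q_P2 (by norm_num)) (by norm_num)
  refine (h1.sub h2).congr fun d => ?_
  rw [P2_x]
  unfold xs x
  rw [← ip_Xs, Xs_ml, map_sub, LinearMap.sub_apply]

theorem q_y_xs (i l : ι) : S.Q 1 2 (fun d => S.y l d (S.xs i d (S.a d))) :=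
  (up_y (Q_dn (q_xs i) (by norm_num)) l (q_dy_xs i l)).1

theorem q_ys_xs (i l : ι) : S.Q 1 2 (fun d => S.ys l d (S.xs i d (S.a d))) :=
  (up_y (Q_dn (q_xs i) (by norm_num)) l (q_dy_xs i l)).2

theorem q_y_x (i l : ι) : S.Q 1 2 (fun d => S.y l d (S.x i d (S.a d))) :=
  (up_y (Q_dn (q_x i) (by norm_num)) l (q_dy_x i l)).1

theorem q_ys_x (i l : ι) : S.Q 1 2 (fun d => S.ys l d (S.x i d (S.a d))) :=
  (up_y (Q_dn (q_x i) (by norm_num)) l (q_dy_x i l)).2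

theorem x_ys (i l : ι) (d : D) (f : TE E) : S.x i d (S.ys l d f) =
    S.ys l d (S.x i d f) + (2 : ℝ) • ml (S.M i l d) f := X_Xs' _ _ _

theorem xs_ys (i l : ι) (d : D) (f : TE E) : S.xs i d (S.ys l d f) =
    S.ys l d (S.xs i d f) := Xs_Xs' _ _ _

theorem q_x_ys (i l : ι) : S.Q 1 2 (fun d => S.x i d (S.ys l d (S.a d))) := by
  refine ((q_ys_x i l).add ((Q_mono (q_Ma i l (by norm_num)) (by norm_num)).cmul 2)).congr
    fun d => ?_
  rw [x_ys]

theorem q_xs_ys (i l : ι) : S.Q 1 2 (fun d => S.xs i d (S.ys l d (S.a d))) :=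
  (q_ys_xs i l).congr fun d => (xs_ys i l d _).symm

end Sg

end Vale.Agent.P088.R2.H820.W
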