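import Vale.Agent.P088.R2.H464.EP.Ops

/-!
# Orders of magnitude, uniform over a family

A family of data is indexed by `D`; `h : D → ℝ` (`1 ≤ h`) is the large parameter. `Bd m g`: all
derivatives of the functions `g d` are `O(h ^ m)` on `Ω d`.
-/

open MeasureTheory Set
open scoped ContDiff

noncomputable section

namespace Vale.Agent.P088.R2.H820.W

open Vale.Agent.P088.R2.H464.EP

/-- The family. -/
structure Fa (D E κ : Type) [NormedAddCommGroup E] [NormedSpace ℝ E] where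
  h : D → ℝ
  h1 : ∀ d, 1 ≤ h d
  Ω : D → Set E
  op : ∀ d, IsOpen (Ω d)
  dir : κ → E

variable {D E κ : Type} [NormedAddCommGroup E] [NormedSpace ℝ E] {F : Fa D E κ}

namespace Fa

theorem hp (F : Fa D E κ) (d : D) : 0 < F.h d := lt_of_lt_of_le one_pos (F.h1 d)

theorem zp (F : Fa D E κ) (d : D) (m : ℤ) : 0 < F.h d ^ m := zpow_pos (F.hp d) m

theorem zle (F : Fa D E κ) (d : D) {m m' : ℤ} (h : m ≤ m') : F.h d ^ m ≤ F.h d ^ m' :=
  zpow_le_zpow_right₀ (F.h1 d) h

theorem zadd (F : Fa D E κ) (d : D) (m m' : ℤ) : F.h d ^ (m + m') = F.h d ^ m * F.h d ^ m' :=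
  zpow_add₀ (F.hp d).ne' m m'

end Fa

/-- A uniform bound. -/
def B0 (F : Fa D E κ) (m : ℤ) (g : D → Sm E) : Prop :=
  ∃ C, 0 ≤ C ∧ ∀ d, ∀ z ∈ F.Ω d, |(g d : E → ℝ) z| ≤ C * F.h d ^ m

/-- Uniform bounds of the derivatives up to the order `k`. -/
def Bk (F : Fa D E κ) : ℕ → ℤ → (D → Sm E) → Prop
  | 0, m, g => B0 F m g
  | k + 1, m, g => B0 F m g ∧ ∀ i, Bk F k m (fun d => ds (F.dir i) (g d))

/-- Uniform bounds of all derivatives. -/
def Bd (F : Fa D E κ) (m : ℤ) (g : D → Sm E) : Prop := ∀ k, Bk F k m g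

section B0

variable {m m' : ℤ} {f g : D → Sm E}

theorem B0.add (hf : B0 F m f) (hg : B0 F m g) : B0 F m (fun d => f d + g d) := by
  obtain ⟨C, hC, h⟩ := hf
  obtain ⟨C', hC', h'⟩ := hg
  refine ⟨C + C', by positivity, fun d z hz => ?_⟩
  have e : ((f d + g d : Sm E) : E → ℝ) z = (f d : E → ℝ) z + (g d : E → ℝ) z := rfl
  rw [e, add_mul]
  exact (abs_add_le _ _).trans (add_le_add (h d z hz) (h' d z hz))

theorem B0.mul (hf : B0 F m f) (hg : B0 F m' g) : B0 F (m + m') (fun d => f d * g d) := by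
  obtain ⟨C, hC, h⟩ := hf
  obtain ⟨C', hC', h'⟩ := hg
  refine ⟨C * C', by positivity, fun d z hz => ?_⟩
  have e : ((f d * g d : Sm E) : E → ℝ) z = (f d : E → ℝ) z * (g d : E → ℝ) z := rfl
  rw [e, abs_mul, F.zadd]
  calc _ ≤ (C * F.h d ^ m) * (C' * F.h d ^ m') :=
        mul_le_mul (h d z hz) (h' d z hz) (abs_nonneg _) (mul_nonneg hC (F.zp d m).le)
    _ = _ := by ring

theorem B0.cmul (c : ℝ) (hf : B0 F m f) : B0 F m (fun d => c • f d) := by
  obtain ⟨C, hC, h⟩ := hf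
  refine ⟨|c| * C, by positivity, fun d z hz => ?_⟩
  have e : ((c • f d : Sm E) : E → ℝ) z = c * (f d : E → ℝ) z := rfl
  rw [e, abs_mul, mul_assoc]
  exact mul_le_mul_of_nonneg_left (h d z hz) (abs_nonneg _)

theorem B0.mono (hf : B0 F m f) (hm : m ≤ m') : B0 F m' f := by
  obtain ⟨C, hC, h⟩ := hf
  exact ⟨C, hC, fun d z hz => (h d z hz).trans (mul_le_mul_of_nonneg_left (F.zle d hm) hC)⟩

theorem B0.congr (hf : B0 F m f) (h : ∀ d, ∀ z ∈ F.Ω d, (f d : E → ℝ) z = (g d : E → ℝ) z) :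
    B0 F m g := by
  obtain ⟨C, hC, h'⟩ := hf
  exact ⟨C, hC, fun d z hz => by rw [← h d z hz]; exact h' d z hz⟩

end B0

section Bk

variable {m m' : ℤ} {f g : D → Sm E} {k : ℕ}

theorem Bk.b0 : ∀ {k : ℕ}, Bk F k m f → B0 F m f
  | 0, h => h
  | _ + 1, h => h.1

theorem Bk.pred : ∀ {k : ℕ} {f : D → Sm E}, Bk F (k + 1) m f → Bk F k m f
  | 0, _, h => h.1
  | _ + 1, _, h => ⟨h.1, fun i => (h.2 i).pred⟩

theorem Bk.add : ∀ {k : ℕ} {f g : D → Sm E}, Bk F k m f → Bk F k m g →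
    Bk F k m (fun d => f d + g d)
  | 0, _, _, hf, hg => B0.add hf hg
  | _ + 1, _, _, hf, hg => ⟨hf.1.add hg.1, fun i => by
      have := (hf.2 i).add (hg.2 i)
      simpa only [map_add] using this⟩

theorem Bk.cmul (c : ℝ) : ∀ {k : ℕ} {f : D → Sm E}, Bk F k m f → Bk F k m (fun d => c • f d)
  | 0, _, hf => B0.cmul c hf
  | _ + 1, _, hf => ⟨hf.1.cmul c, fun i => by
      have := (hf.2 i).cmul c
      simpa only [map_smul] using this⟩

theorem Bk.mono (hm : m ≤ m') : ∀ {k : ℕ} {f : D → Sm E}, Bk F k m f → Bk F k m' f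
  | 0, _, hf => B0.mono hf hm
  | _ + 1, _, hf => ⟨hf.1.mono hm, fun i => (hf.2 i).mono hm⟩

theorem Bk.mul : ∀ {k : ℕ} {f g : D → Sm E}, Bk F k m f → Bk F k m' g →
    Bk F k (m + m') (fun d => f d * g d)
  | 0, _, _, hf, hg => B0.mul hf hg
  | _ + 1, _, _, hf, hg => ⟨hf.1.mul hg.1, fun i => by
      have := ((hf.2 i).mul hg.pred).add (hf.pred.mul (hg.2 i))
      simpa only [ds_mul] using this⟩

theorem ds_congr_on {U : Set E} (hU : IsOpen U) {f g : Sm E}
    (h : ∀ z ∈ U, (f : E → ℝ) z = (g : E → ℝ) z) (v : E) :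
    ∀ z ∈ U, (ds v f : E → ℝ) z = (ds v g : E → ℝ) z := by
  intro z hz
  rw [ds_apply, ds_apply]
  have : (f : E → ℝ) =ᶠ[nhds z] (g : E → ℝ) := by
    filter_upwards [hU.mem_nhds hz] with w hw using h w hw
  rw [this.fderiv_eq]

theorem Bk.congr : ∀ {k : ℕ} {f g : D → Sm E}, Bk F k m f →
    (∀ d, ∀ z ∈ F.Ω d, (f d : E → ℝ) z = (g d : E → ℝ) z) → Bk F k m g
  | 0, _, _, hf, h => B0.congr hf h
  | _ + 1, _, _, hf, h => ⟨hf.1.congr h, fun i => (hf.2 i).congr fun d =>
      ds_congr_on (F.op d) (h d) (F.dir i)⟩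

end Bk

section Bd

variable {m m' : ℤ} {f g : D → Sm E}

theorem Bd.b0 (h : Bd F m f) : B0 F m f := h 0

theorem Bd.dr (h : Bd F m f) (i : κ) : Bd F m (fun d => ds (F.dir i) (f d)) :=
  fun k => (h (k + 1)).2 i

theorem Bd.add (hf : Bd F m f) (hg : Bd F m g) : Bd F m (fun d => f d + g d) :=
  fun k => (hf k).add (hg k)

theorem Bd.cmul (c : ℝ) (hf : Bd F m f) : Bd F m (fun d => c • f d) := fun k => (hf k).cmul c

theorem Bd.mono (hf : Bd F m f) (hm : m ≤ m') : Bd F m' f := fun k => (hf k).mono hm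

theorem Bd.mul (hf : Bd F m f) (hg : Bd F m' g) : Bd F (m + m') (fun d => f d * g d) :=
  fun k => (hf k).mul (hg k)

theorem Bd.mul' {p : ℤ} (hf : Bd F m f) (hg : Bd F m' g) (e : m + m' ≤ p) :
    Bd F p (fun d => f d * g d) := (hf.mul hg).mono e

theorem Bd.congr (hf : Bd F m f) (h : ∀ d, ∀ z ∈ F.Ω d, (f d : E → ℝ) z = (g d : E → ℝ) z) :
    Bd F m g := fun k => (hf k).congr h

theorem Bd.zero : Bd F m (fun _ => 0) := by
  intro k
  induction k with
  | zero => exact ⟨0, le_rfl, fun d z _ => by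
      have : ((0 : Sm E) : E → ℝ) z = 0 := rfl
      rw [this]; simp⟩
  | succ k ih => exact ⟨⟨0, le_rfl, fun d z _ => by
      have : ((0 : Sm E) : E → ℝ) z = 0 := rfl
      rw [this]; simp⟩, fun i => by simpa only [map_zero] using ih⟩

theorem Bd.one (hm : 0 ≤ m) : Bd F m (fun _ => 1) := by
  have b : B0 F 0 (fun _ => 1) := ⟨1, zero_le_one, fun d z _ => by
      have : ((1 : Sm E) : E → ℝ) z = 1 := rfl
      rw [this]; simp⟩
  intro k
  cases k with
  | zero => exact b.mono hm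
  | succ k => exact ⟨b.mono hm, fun i => by simpa only [ds_one] using Bd.zero k⟩

theorem Bd.neg (hf : Bd F m f) : Bd F m (fun d => -f d) := by
  have := hf.cmul (-1)
  simpa only [neg_smul, one_smul] using this

theorem Bd.sub (hf : Bd F m f) (hg : Bd F m g) : Bd F m (fun d => f d - g d) := by
  simpa only [sub_eq_add_neg] using hf.add hg.neg

theorem Bd.sum {α : Type} (S : Finset α) {f : α → D → Sm E} (h : ∀ a ∈ S, Bd F m (f a)) :
    Bd F m (fun d => ∑ a ∈ S, f a d) := by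
  classical
  induction S using Finset.induction_on with
  | empty => simpa using Bd.zero
  | insert a S ha ih =>
    simp only [Finset.sum_insert ha]
    exact (h a (Finset.mem_insert_self a S)).add
      (ih fun i hi => h i (Finset.mem_insert_of_mem hi))

/-- Bounds of an inverse. -/
theorem Bd.inv (hf : Bd F m f) (hg : B0 F (-m) g)
    (e : ∀ d, ∀ z ∈ F.Ω d, (g d : E → ℝ) z * (f d : E → ℝ) z = 1) : Bd F (-m) g := by
  intro k
  induction k with
  | zero => exact hg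
  | succ k ih =>
    refine ⟨hg, fun i => ?_⟩
    have h1 := ((ih.mul ih).mul (hf.dr i k)).cmul (-1)
    refine (h1.mono (by ring_nf; exact le_rfl)).congr fun d z hz => ?_
    have h2 : ∀ z ∈ F.Ω d, (g d * f d : Sm E).1 z = (1 : Sm E).1 z := fun z hz => e d z hz
    have h3 := ds_congr_on (F.op d) h2 (F.dir i) z hz
    rw [ds_mul, ds_one] at h3
    have h4 : (ds (F.dir i) (g d) : E → ℝ) z * (f d : E → ℝ) z +
        (g d : E → ℝ) z * (ds (F.dir i) (f d) : E → ℝ) z = 0 := h3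
    have h5 := e d z hz
    have h6 : (((-1 : ℝ) • (g d * g d * ds (F.dir i) (f d)) : Sm E) : E → ℝ) z =
      -1 * ((g d : E → ℝ) z * (g d : E → ℝ) z * (ds (F.dir i) (f d) : E → ℝ) z) := rfl
    rw [h6]
    linear_combination (-(g d : E → ℝ) z) * h4 + (ds (F.dir i) (g d) : E → ℝ) z * h5

end Bd

/-! ## Supports -/

/-- `χ = 1` where `g ≠ 0`. -/
def Su (χ g : D → Sm E) : Prop := ∀ d z, (g d : E → ℝ) z ≠ 0 → (χ d : E → ℝ) z = 1

section Su

variable {χ χ' f g : D → Sm E}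

theorem Su.mul_left (h : Su χ g) (f : D → Sm E) : Su χ (fun d => f d * g d) := fun d z hz => by
  have e : ((f d * g d : Sm E) : E → ℝ) z = (f d : E → ℝ) z * (g d : E → ℝ) z := rfl
  rw [e] at hz
  exact h d z (right_ne_zero_of_mul hz)

theorem Su.mul_right (h : Su χ g) (f : D → Sm E) : Su χ (fun d => g d * f d) := fun d z hz => by
  have e : ((g d * f d : Sm E) : E → ℝ) z = (g d : E → ℝ) z * (f d : E → ℝ) z := rfl
  rw [e] at hz
  exact h d z (left_ne_zero_of_mul hz)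

theorem Su.add (h : Su χ f) (h' : Su χ g) : Su χ (fun d => f d + g d) := fun d z hz => by
  by_contra hc
  have h1 : (f d : E → ℝ) z = 0 := by by_contra h0; exact hc (h d z h0)
  have h2 : (g d : E → ℝ) z = 0 := by by_contra h0; exact hc (h' d z h0)
  apply hz
  change (f d : E → ℝ) z + (g d : E → ℝ) z = 0
  rw [h1, h2, add_zero]

theorem Su.cmul (c : ℝ) (h : Su χ g) : Su χ (fun d => c • g d) := fun d z hz => by
  have e : ((c • g d : Sm E) : E → ℝ) z = c * (g d : E → ℝ) z := rfl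
  rw [e] at hz
  exact h d z (right_ne_zero_of_mul hz)

theorem su_zero : Su χ (fun _ => 0) := fun _ _ hz => absurd rfl hz

theorem Su.sum {α : Type} (S : Finset α) {f : α → D → Sm E} (h : ∀ a ∈ S, Su χ (f a)) :
    Su χ (fun d => ∑ a ∈ S, f a d) := by
  classical
  induction S using Finset.induction_on with
  | empty => simpa using su_zero
  | insert a S ha ih =>
    simp only [Finset.sum_insert ha]
    exact (h a (Finset.mem_insert_self a S)).add
      (ih fun i hi => h i (Finset.mem_insert_of_mem hi))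

theorem Su.dr (h : Su χ g) (v : E) : Su χ (fun d => ds v (g d)) := fun d z hz => by
  have hc : IsClosed {z | (χ d : E → ℝ) z = 1} := isClosed_eq (sct (χ d)) continuous_const
  by_contra hn
  apply hz
  have h1 : (g d : E → ℝ) =ᶠ[nhds z] fun _ => 0 := by
    filter_upwards [hc.isOpen_compl.mem_nhds hn] with w hw
    by_contra h0
    exact hw (h d w h0)
  change fderiv ℝ (g d : E → ℝ) z v = 0
  rw [h1.fderiv_eq]; simp

end Su

end Vale.Agent.P088.R2.H820.W
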