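import Vale.Agent.P088.R2.H820.W.Ord

/-!
# Orders of magnitude of test functions

`Qd χ s X`: `‖χ X‖² ≤ C h ^ (2 s) r`, uniformly in the family (`r` is the basic error functional).
-/

open MeasureTheory Set
open scoped ContDiff

noncomputable section

namespace Vale.Agent.P088.R2.H820.W

open Vale.Agent.P088.R2.H464.EP

variable {D E κ : Type} [NormedAddCommGroup E] [NormedSpace ℝ E] {F : Fa D E κ}

/-! ## Remainders -/

/-- `|T d| ≤ C h ^ m r`. -/
def Rm (F : Fa D E κ) (r : D → ℝ) (m : ℤ) (T : D → ℝ) : Prop :=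
  ∃ C, 0 ≤ C ∧ ∀ d, |T d| ≤ C * F.h d ^ m * r d

section Rm

variable {r : D → ℝ} {m m' : ℤ} {T S : D → ℝ}

theorem Rm.add (hT : Rm F r m T) (hS : Rm F r m S) : Rm F r m (fun d => T d + S d) := by
  obtain ⟨C, hC, h⟩ := hT
  obtain ⟨C', hC', h'⟩ := hS
  refine ⟨C + C', by positivity, fun d => ?_⟩
  rw [add_mul, add_mul]
  exact (abs_add_le _ _).trans (add_le_add (h d) (h' d))

theorem Rm.cmul (c : ℝ) (hT : Rm F r m T) : Rm F r m (fun d => c * T d) := by
  obtain ⟨C, hC, h⟩ := hT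
  refine ⟨|c| * C, by positivity, fun d => ?_⟩
  rw [abs_mul]
  calc _ ≤ |c| * (C * F.h d ^ m * r d) := mul_le_mul_of_nonneg_left (h d) (abs_nonneg _)
    _ = _ := by ring

theorem Rm.neg (hT : Rm F r m T) : Rm F r m (fun d => -T d) := by
  have := hT.cmul (-1)
  simpa using this

theorem Rm.sub (hT : Rm F r m T) (hS : Rm F r m S) : Rm F r m (fun d => T d - S d) := by
  simpa only [sub_eq_add_neg] using hT.add hS.neg

theorem rm_zero : Rm F r m (fun _ => 0) := ⟨0, le_rfl, fun d => by simp⟩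

theorem Rm.sum {α : Type} (A : Finset α) {T : α → D → ℝ} (h : ∀ a ∈ A, Rm F r m (T a)) :
    Rm F r m (fun d => ∑ a ∈ A, T a d) := by
  classical
  induction A using Finset.induction_on with
  | empty => simpa using rm_zero
  | insert a A ha ih =>
    simp only [Finset.sum_insert ha]
    exact (h a (Finset.mem_insert_self a A)).add
      (ih fun i hi => h i (Finset.mem_insert_of_mem hi))

theorem Rm.mono (hr : ∀ d, 0 ≤ r d) (hT : Rm F r m T) (hm : m ≤ m') : Rm F r m' T := by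
  obtain ⟨C, hC, h⟩ := hT
  exact ⟨C, hC, fun d => (h d).trans (mul_le_mul_of_nonneg_right
    (mul_le_mul_of_nonneg_left (F.zle d hm) hC) (hr d))⟩

theorem Rm.congr (hT : Rm F r m T) (h : ∀ d, T d = S d) : Rm F r m S := by
  have : T = S := funext h
  rwa [← this]

end Rm

/-! ## Test functions -/

variable [MeasurableSpace E] [BorelSpace E] {μ : Measure E} [IsFiniteMeasureOnCompacts μ]

/-- `‖f‖²`. -/
def nm (μ : Measure E) [IsFiniteMeasureOnCompacts μ] (f : TE E) : ℝ := ip μ f f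

theorem nm_nonneg (f : TE E) : 0 ≤ nm μ f := ip_self_nonneg μ f

theorem nm_add (f g : TE E) : nm μ (f + g) ≤ 2 * nm μ f + 2 * nm μ g := by
  have h := nm_nonneg (μ := μ) (f - g)
  have e1 : nm μ (f + g) = nm μ f + 2 * ip μ f g + nm μ g := by
    unfold nm
    simp only [map_add, LinearMap.add_apply]
    rw [ip_comm μ g f]; ring
  have e2 : nm μ (f - g) = nm μ f - 2 * ip μ f g + nm μ g := by
    unfold nm
    simp only [map_sub, LinearMap.sub_apply]
    rw [ip_comm μ g f]; ring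
  rw [e2] at h
  rw [e1]
  linarith

theorem nm_smul (c : ℝ) (f : TE E) : nm μ (c • f) = c ^ 2 * nm μ f := by
  unfold nm
  simp only [map_smul, LinearMap.smul_apply, smul_eq_mul]
  ring

theorem nm_zero : nm μ (0 : TE E) = 0 := by unfold nm; simp

/-- Cauchy–Schwarz. -/
theorem ip_sq (f g : TE E) : ip μ f g ^ 2 ≤ nm μ f * nm μ g := by
  have key : ∀ t : ℝ, 0 ≤ nm μ f * (t * t) + (2 * ip μ f g) * t + nm μ g := fun t => by
    have h := nm_nonneg (μ := μ) (t • f + g)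
    have e : nm μ (t • f + g) = nm μ f * (t * t) + (2 * ip μ f g) * t + nm μ g := by
      unfold nm
      simp only [map_add, LinearMap.add_apply, map_smul, LinearMap.smul_apply, smul_eq_mul]
      rw [ip_comm μ g f]; ring
    rwa [e] at h
  have h := discrim_le_zero key
  unfold discrim at h
  linarith

/-- Pointwise comparison. -/
theorem nm_mono {f g : TE E} {c : ℝ} (h : ∀ z, f.fn z ^ 2 ≤ c * g.fn z ^ 2) :
    nm μ f ≤ c * nm μ g := by
  unfold nm
  rw [ip_apply, ip_apply, ← integral_const_mul]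
  refine integral_mono (integrable_mul μ f f) ((integrable_mul μ g g).const_mul c) fun z => ?_
  have := h z
  simp only
  nlinarith [this]

/-- `‖χ X‖² ≤ C h ^ (2 s) r`. -/
def Qd (F : Fa D E κ) (μ : Measure E) [IsFiniteMeasureOnCompacts μ] (r : D → ℝ) (χ : D → Sm E)
    (s : ℤ) (X : D → TE E) : Prop :=
  ∃ C, 0 ≤ C ∧ ∀ d, nm μ (ml (χ d) (X d)) ≤ C * F.h d ^ (2 * s) * r d

section Qd

variable {r : D → ℝ} {χ χ' : D → Sm E} {s t : ℤ} {X Y : D → TE E}

theorem Qd.add (hX : Qd F μ r χ s X) (hY : Qd F μ r χ s Y) :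
    Qd F μ r χ s (fun d => X d + Y d) := by
  obtain ⟨C, hC, h⟩ := hX
  obtain ⟨C', hC', h'⟩ := hY
  refine ⟨2 * C + 2 * C', by positivity, fun d => ?_⟩
  rw [map_add]
  have := nm_add (μ := μ) (ml (χ d) (X d)) (ml (χ d) (Y d))
  have h1 := h d
  have h2 := h' d
  calc _ ≤ _ := this
    _ ≤ 2 * (C * F.h d ^ (2 * s) * r d) + 2 * (C' * F.h d ^ (2 * s) * r d) := by linarith
    _ = _ := by ring

theorem Qd.cmul (c : ℝ) (hX : Qd F μ r χ s X) : Qd F μ r χ s (fun d => c • X d) := by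
  obtain ⟨C, hC, h⟩ := hX
  refine ⟨c ^ 2 * C, by positivity, fun d => ?_⟩
  rw [map_smul, nm_smul]
  calc _ ≤ c ^ 2 * (C * F.h d ^ (2 * s) * r d) :=
        mul_le_mul_of_nonneg_left (h d) (sq_nonneg c)
    _ = _ := by ring

theorem Qd.neg (hX : Qd F μ r χ s X) : Qd F μ r χ s (fun d => -X d) := by
  have := hX.cmul (-1)
  simpa only [neg_smul, one_smul] using this

theorem Qd.sub (hX : Qd F μ r χ s X) (hY : Qd F μ r χ s Y) :
    Qd F μ r χ s (fun d => X d - Y d) := by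
  simpa only [sub_eq_add_neg] using hX.add hY.neg

theorem qd_zero : Qd F μ r χ s (fun _ => 0) := ⟨0, le_rfl, fun d => by
  rw [map_zero, nm_zero]; simp⟩

theorem Qd.sum {α : Type} (A : Finset α) {X : α → D → TE E} (h : ∀ a ∈ A, Qd F μ r χ s (X a)) :
    Qd F μ r χ s (fun d => ∑ a ∈ A, X a d) := by
  classical
  induction A using Finset.induction_on with
  | empty => simpa using qd_zero
  | insert a A ha ih =>
    simp only [Finset.sum_insert ha]
    exact (h a (Finset.mem_insert_self a A)).add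
      (ih fun i hi => h i (Finset.mem_insert_of_mem hi))

theorem Qd.mono (hr : ∀ d, 0 ≤ r d) (hX : Qd F μ r χ s X) (hm : s ≤ t) : Qd F μ r χ t X := by
  obtain ⟨C, hC, h⟩ := hX
  exact ⟨C, hC, fun d => (h d).trans (mul_le_mul_of_nonneg_right
    (mul_le_mul_of_nonneg_left (F.zle d (by omega)) hC) (hr d))⟩

theorem Qd.congr (hX : Qd F μ r χ s X) (h : ∀ d, X d = Y d) : Qd F μ r χ s Y := by
  have : X = Y := funext h
  rwa [← this]

/-- Multiplication by a function. -/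
theorem Qd.mu {m : ℤ} {g : D → Sm E} (hΩ : ∀ d z, (χ d : E → ℝ) z ≠ 0 → z ∈ F.Ω d)
    (hX : Qd F μ r χ s X) (hg : B0 F m g) : Qd F μ r χ (s + m) (fun d => ml (g d) (X d)) := by
  obtain ⟨C, hC, h⟩ := hX
  obtain ⟨C', hC', h'⟩ := hg
  refine ⟨C' ^ 2 * C, by positivity, fun d => ?_⟩
  have h1 : nm μ (ml (χ d) (ml (g d) (X d))) ≤
      (C' * F.h d ^ m) ^ 2 * nm μ (ml (χ d) (X d)) := by
    refine nm_mono fun z => ?_
    simp only [ml_apply]
    by_cases hz : (χ d : E → ℝ) z = 0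
    · rw [hz]; simp
    · have h2 := h' d z (hΩ d z hz)
      have h3 : (g d : E → ℝ) z ^ 2 ≤ (C' * F.h d ^ m) ^ 2 := by
        rw [← sq_abs]
        exact pow_le_pow_left₀ (abs_nonneg _) h2 2
      calc _ = (g d : E → ℝ) z ^ 2 * ((χ d : E → ℝ) z * (X d).fn z) ^ 2 := by ring
        _ ≤ _ := mul_le_mul_of_nonneg_right h3 (sq_nonneg _)
  refine h1.trans ?_
  calc _ ≤ (C' * F.h d ^ m) ^ 2 * (C * F.h d ^ (2 * s) * r d) :=
        mul_le_mul_of_nonneg_left (h d) (sq_nonneg _)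
    _ = C' ^ 2 * C * (F.h d ^ (2 * s) * (F.h d ^ m * F.h d ^ m)) * r d := by ring
    _ = _ := by
        rw [← F.zadd, ← F.zadd]
        congr 3
        ring

/-- A smaller cut-off. -/
theorem Qd.level (hX : Qd F μ r χ s X) (hb : ∀ d z, |(χ' d : E → ℝ) z| ≤ 1) (h : Su χ χ') :
    Qd F μ r χ' s X := by
  obtain ⟨C, hC, h'⟩ := hX
  refine ⟨C, hC, fun d => le_trans ?_ (h' d)⟩
  have := nm_mono (μ := μ) (f := ml (χ' d) (X d)) (g := ml (χ d) (X d)) (c := 1) fun z => by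
    simp only [ml_apply]
    by_cases hz : (χ' d : E → ℝ) z = 0
    · rw [hz]
      have := sq_nonneg ((χ d : E → ℝ) z * (X d).fn z)
      simpa using this
    · rw [h d z hz, mul_pow]
      have : (χ' d : E → ℝ) z ^ 2 ≤ 1 := by
        rw [← sq_abs]
        exact pow_le_one₀ (abs_nonneg _) (hb d z)
      nlinarith [sq_nonneg ((X d).fn z)]
  simpa using this

/-- A global bound gives a bound with a cut-off. -/
theorem qd_glob {C : ℝ} (hC : 0 ≤ C) (hb : ∀ d z, |(χ d : E → ℝ) z| ≤ 1)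
    (h : ∀ d, nm μ (X d) ≤ C * F.h d ^ (2 * s) * r d) : Qd F μ r χ s X := by
  refine ⟨C, hC, fun d => le_trans ?_ (h d)⟩
  have := nm_mono (μ := μ) (f := ml (χ d) (X d)) (g := X d) (c := 1) fun z => by
    simp only [ml_apply]
    rw [mul_pow]
    have : (χ d : E → ℝ) z ^ 2 ≤ 1 := by
      rw [← sq_abs]
      exact pow_le_one₀ (abs_nonneg _) (hb d z)
    nlinarith [sq_nonneg ((X d).fn z)]
  simpa using this

/-- Products of the orders `s`, `t`. -/
theorem rm_ip0 (hr : ∀ d, 0 ≤ r d) (hX : Qd F μ r χ s X) (hY : Qd F μ r χ t Y) :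
    Rm F r (s + t) (fun d => ip μ (ml (χ d) (X d)) (ml (χ d) (Y d))) := by
  obtain ⟨C, hC, h⟩ := hX
  obtain ⟨C', hC', h'⟩ := hY
  refine ⟨C + C', by positivity, fun d => ?_⟩
  have h1 := ip_sq (μ := μ) (ml (χ d) (X d)) (ml (χ d) (Y d))
  have h2 : nm μ (ml (χ d) (X d)) * nm μ (ml (χ d) (Y d)) ≤
      (C * F.h d ^ (2 * s) * r d) * (C' * F.h d ^ (2 * t) * r d) :=
    mul_le_mul (h d) (h' d) (nm_nonneg _)
      (mul_nonneg (mul_nonneg hC (F.zp d _).le) (hr d))
  have h3 : (C * F.h d ^ (2 * s) * r d) * (C' * F.h d ^ (2 * t) * r d) =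
      C * C' * (F.h d ^ (s + t) * r d) ^ 2 := by
    have e : F.h d ^ (2 * s) * F.h d ^ (2 * t) = (F.h d ^ (s + t)) ^ 2 := by
      rw [← F.zadd, sq, ← F.zadd]
      congr 1
      ring
    calc _ = C * C' * (F.h d ^ (2 * s) * F.h d ^ (2 * t)) * r d ^ 2 := by ring
      _ = _ := by rw [e]; ring
  have h4 : C * C' * (F.h d ^ (s + t) * r d) ^ 2 ≤ ((C + C') * F.h d ^ (s + t) * r d) ^ 2 := by
    have : C * C' ≤ (C + C') ^ 2 := by nlinarith [mul_nonneg hC hC', sq_nonneg C, sq_nonneg C']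
    calc _ ≤ (C + C') ^ 2 * (F.h d ^ (s + t) * r d) ^ 2 :=
          mul_le_mul_of_nonneg_right this (sq_nonneg _)
      _ = _ := by ring
  exact abs_le_of_sq_le_sq ((h1.trans h2).trans (h3.le.trans h4))
    (mul_nonneg (mul_nonneg (by positivity) (F.zp d _).le) (hr d))

/-- **The basic remainder estimate.** -/
theorem rm_ip (hr : ∀ d, 0 ≤ r d) (hΩ : ∀ d z, (χ d : E → ℝ) z ≠ 0 → z ∈ F.Ω d) {m p : ℤ}
    {g : D → Sm E} (hg : Bd F m g) (sg : Su χ g) (hX : Qd F μ r χ s X) (hY : Qd F μ r χ t Y)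
    (hp : m + s + t ≤ p) : Rm F r p (fun d => ip μ (ml (g d) (X d)) (Y d)) := by
  have h1 := rm_ip0 hr (hX.mu hΩ hg.b0) hY
  refine (h1.mono hr (by omega : s + m + t ≤ p)).congr fun d => ?_
  rw [ip_apply, ip_apply]
  refine integral_congr_ae (Filter.Eventually.of_forall fun z => ?_)
  simp only [ml_apply]
  by_cases hz : (g d : E → ℝ) z = 0
  · rw [hz]; ring
  · rw [sg d z hz]; ring

end Qd

end Vale.Agent.P088.R2.H820.W
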