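import Vale.Agent.P088.R2.H820.W.Jest

/-!
# Elimination of `b`
-/

open MeasureTheory Set
open scoped ContDiff

set_option linter.unusedSectionVars false

noncomputable section

namespace Vale.Agent.P088.R2.H820.W

open Vale.Agent.P088.R2.H464.EP

namespace Sg

variable {D E ι : Type} [NormedAddCommGroup E] [NormedSpace ℝ E] [Fintype ι] [MeasurableSpace E]
  [BorelSpace E] [FiniteDimensional ℝ E] {μ : Measure E} [μ.IsAddHaarMeasure]
  {S : Sg D E ι μ} {s t m p : ℤ} {u v b : D → TE E} {g ψ kap sig lam om : D → Sm E}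
  {T T₁ T₂ T₃ : D → ℝ}

/-- Values of a sum. -/
theorem sum_val {α : Type} (A : Finset α) (f : α → Sm E) (z : E) :
    ((∑ i ∈ A, f i : Sm E) : E → ℝ) z = ∑ i ∈ A, (f i : E → ℝ) z := by
  have : ((∑ i ∈ A, f i : Sm E) : E → ℝ) = ∑ i ∈ A, (f i : E → ℝ) := by simp
  rw [this, Finset.sum_apply]

theorem TE_sum_val {α : Type} (A : Finset α) (f : α → TE E) (z : E) :
    (∑ i ∈ A, f i).fn z = ∑ i ∈ A, (f i).fn z := by
  have : ∀ x : TE E, x.fn = TE.fnHom x := fun _ => rfl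
  rw [this, map_sum, Finset.sum_apply]
  rfl

/-- `w·V`, `V = ys b`. -/
def Zb (S : Sg D E ι μ) (b : D → TE E) (d : D) : TE E := ∑ k, ml (S.wy k d) (S.ys k d (b d))

/-- The energy of `b`, part 1. -/
theorem gv1 (hk : S.B 2 kap) (qb : S.Q 3 (-2) b) (pb : S.Q 1 1 (fun d => S.P2 d (b d))) :
    S.R 1 (fun d => (∑ k, ip μ (ml (S.χ 0 d * S.χ 0 d * kap d) (S.ys k d (b d)))
      (S.ys k d (b d))) - 2 * ip μ (ml (S.χ 0 d * S.χ 0 d * kap d * S.L2 d) (b d)) (b d)) := by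
  have hψ : S.B 2 (fun d => S.χ 0 d * S.χ 0 d * kap d) :=
    (Bχχ (by norm_num)).mul' hk (by norm_num)
  have sψ : Su (S.χ 1) (fun d => S.χ 0 d * S.χ 0 d * kap d) :=
    (Sχχ (j := 0) (by norm_num)).mul_right _
  have qb1 : S.Q 1 (-2) b := Q_dn (Q_dn qb (by norm_num)) (by norm_num)
  exact energy_y hψ sψ qb1 (by norm_num) (R_ip hψ sψ (by norm_num) qb1 pb (by norm_num))

/-- The energy of `b`, part 2. -/
theorem gv2 (hs : S.B (-2) sig) (sp : ∀ d, ∀ z ∈ S.Ω d, 0 ≤ (sig d : E → ℝ) z)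
    (qb : S.Q 3 (-2) b) :
    S.Lq (fun d => ip μ (ml (S.χ 0 d * S.χ 0 d * sig d * S.L2 d * S.L2 d) (b d)) (b d))
      (fun d => ip μ (ml (S.χ 0 d * S.χ 0 d * sig d) (S.Zb b d)) (S.Zb b d)) := by
  have hψ : S.B (-2) (fun d => S.χ 0 d * S.χ 0 d * sig d) :=
    (Bχχ (by norm_num)).mul' hs (by norm_num)
  have sψ : Su (S.χ 1) (fun d => S.χ 0 d * S.χ 0 d * sig d) :=
    (Sχχ (j := 0) (by norm_num)).mul_right _
  have qb1 : S.Q 1 (-2) b := Q_dn (Q_dn qb (by norm_num)) (by norm_num)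
  have h1 : ∀ k, S.R 1 (fun d => ip μ (ml (ds (S.dir (Sum.inr k))
      (S.χ 0 d * S.χ 0 d * sig d * (S.L2 d * S.wy k d))) (b d)) (b d)) := fun k =>
    R_ip ((hψ.mul' (BL2.mul (S.Bwy k)) (by norm_num : (-2 : ℤ) + (4 + 2) ≤ 4)).dr _)
      ((sψ.mul_right _).dr _) (by norm_num) qb1 qb1 (by norm_num)
  refine ⟨_, (Rm.sum Finset.univ fun k _ => h1 k).neg, fun d => ?_⟩
  beta_reduce
  set ψ := S.χ 0 d * S.χ 0 d * sig d with hψd
  set Y : TE E := ∑ k, ml (S.wy k d) (dv (S.dir (Sum.inr k)) (b d)) with hY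
  have e1 : S.Zb b d = ml (S.L2 d) (b d) - Y := by
    unfold Zb L2
    rw [hY, map_sum, LinearMap.sum_apply, ← Finset.sum_sub_distrib]
    refine Finset.sum_congr rfl fun k _ => ?_
    unfold ys wy
    rw [Xs_eq, map_sub, ml_ml]
  have pψ : ∀ z, 0 ≤ (ψ : E → ℝ) z := by
    intro z
    change 0 ≤ (S.χ 0 d : E → ℝ) z * (S.χ 0 d : E → ℝ) z * (sig d : E → ℝ) z
    by_cases hz : (S.χ 0 d : E → ℝ) z = 0
    · rw [hz]; simp
    · exact mul_nonneg (mul_self_nonneg _) (sp d z (S.χ1 0 (by norm_num) d z hz))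
  have e2 : ip μ (ml ψ (S.Zb b d)) (S.Zb b d) = ip μ (ml (ψ * S.L2 d * S.L2 d) (b d)) (b d) -
      2 * ip μ (ml ψ Y) (ml (S.L2 d) (b d)) + ip μ (ml ψ Y) Y := by
    rw [e1]
    simp only [map_sub, LinearMap.sub_apply]
    have a1 : ip μ (ml ψ (ml (S.L2 d) (b d))) (ml (S.L2 d) (b d)) =
        ip μ (ml (ψ * S.L2 d * S.L2 d) (b d)) (b d) := by
      rw [← ip_ml, ml_ml, ml_ml]
      rw [show S.L2 d * ψ * S.L2 d = ψ * S.L2 d * S.L2 d by ring]
    rw [a1, ip_sym ψ (ml (S.L2 d) (b d)) Y]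
    ring
  have e3 : ip μ (ml ψ Y) (ml (S.L2 d) (b d)) =
      ∑ k, -(1 / 2) * ip μ (ml (ds (S.dir (Sum.inr k)) (ψ * (S.L2 d * S.wy k d))) (b d))
        (b d) := by
    rw [hY]
    simp only [map_sum, LinearMap.sum_apply]
    refine Finset.sum_congr rfl fun k _ => ?_
    rw [← half, ← ip_ml, ml_ml, ml_ml, show S.L2 d * ψ * S.wy k d =
      ψ * (S.L2 d * S.wy k d) by ring]
  have e4 := ip_ml_nonneg μ pψ Y
  rw [e2, e3, ← Finset.mul_sum]
  linarith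

/-- The cross term. -/
theorem mv (qb : S.Q 3 (-2) b) :
    S.R 1 (fun d => (∑ i, ∑ j, ip μ (ml (S.χ 0 d * S.χ 0 d * S.M i j d) (S.xs i d (S.a d)))
      (S.ys j d (b d))) - ip μ (ml (S.χ 0 d * S.χ 0 d) (S.Yf d)) (b d)) := by
  have qb1 : S.Q 1 (-2) b := Q_dn (Q_dn qb (by norm_num)) (by norm_num)
  have h1 : ∀ j, S.R 1 (fun d => ip μ (ml (ds (S.dir (Sum.inr j)) (S.χ 0 d * S.χ 0 d))
      (S.f j d)) (b d)) := fun j =>
    R_ip ((Bχχ (by norm_num)).dr _) ((Sχχ (j := 0) (by norm_num)).dr _) (by norm_num)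
      (Q_dn (q_f j) (by norm_num)) qb1 (by norm_num)
  refine (Rm.sum Finset.univ fun j _ => h1 j).congr fun d => ?_
  have e1 : ∑ i, ∑ j, ip μ (ml (S.χ 0 d * S.χ 0 d * S.M i j d) (S.xs i d (S.a d)))
      (S.ys j d (b d)) = ∑ j, ip μ (ml (S.χ 0 d * S.χ 0 d) (S.f j d)) (S.ys j d (b d)) := by
    rw [Finset.sum_comm]
    refine Finset.sum_congr rfl fun j _ => ?_
    unfold f
    simp only [map_sum, LinearMap.sum_apply]
    exact Finset.sum_congr rfl fun i _ => by rw [ml_ml]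
  have e2 : ip μ (ml (S.χ 0 d * S.χ 0 d) (S.Yf d)) (b d) =
      ∑ j, ip μ (ml (S.χ 0 d * S.χ 0 d) (S.y j d (S.f j d))) (b d) := by
    unfold Yf
    simp only [map_sum, LinearMap.sum_apply]
  rw [e1, e2, ← Finset.sum_sub_distrib]
  refine Finset.sum_congr rfl fun j _ => ?_
  unfold ys y
  rw [← ip_X, X_ml, map_add, LinearMap.add_apply]
  ring

/-- `2 kap + sig |W_y|²`. -/
def gam (S : Sg D E ι μ) (kap sig : D → Sm E) (d : D) : Sm E := kap d + kap d + sig d * S.L2 d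

/-- The lower bound of the `G` term. -/
theorem gv {e : D → ℝ} (hG : ∀ d, ∀ z ∈ S.Ω d, ∀ v : ι → ℝ,
      (kap d : E → ℝ) z * ∑ k, v k ^ 2 + (sig d : E → ℝ) z * (∑ k, (S.wy k d : E → ℝ) z * v k) ^ 2 +
        e d * ∑ k, v k ^ 2 ≤ ∑ j, ∑ k, (S.G j k d : E → ℝ) z * v j * v k) (d : D) :
    (∑ k, ip μ (ml (S.χ 0 d * S.χ 0 d * kap d) (S.ys k d (b d))) (S.ys k d (b d))) +
      ip μ (ml (S.χ 0 d * S.χ 0 d * sig d) (S.Zb b d)) (S.Zb b d) +
      e d * (∑ k, nm μ (ml (S.χ 0 d) (S.ys k d (b d)))) ≤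
    ∑ j, ∑ k, ip μ (ml (S.χ 0 d * S.χ 0 d * S.G j k d) (S.ys j d (b d))) (S.ys k d (b d)) := by
  simp only [nm_chi, ip_apply]
  have ii : ∀ (g : Sm E) (p q : TE E), Integrable (fun z => (ml g p).fn z * q.fn z) μ :=
    fun g p q => integrable_mul μ _ _
  have e2 : ∑ j, ∑ k, ∫ z, (ml (S.χ 0 d * S.χ 0 d * S.G j k d) (S.ys j d (b d))).fn z *
      (S.ys k d (b d)).fn z ∂μ = ∫ z, ∑ j, ∑ k, (ml (S.χ 0 d * S.χ 0 d * S.G j k d)
        (S.ys j d (b d))).fn z * (S.ys k d (b d)).fn z ∂μ := by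
    rw [integral_finsetSum _ fun j _ => integrable_finsetSum _ fun k _ => ii _ _ _]
    exact Finset.sum_congr rfl fun j _ => (integral_finsetSum _ fun k _ => ii _ _ _).symm
  have i1 : Integrable (fun z => ∑ k, (ml (S.χ 0 d * S.χ 0 d * kap d) (S.ys k d (b d))).fn z *
      (S.ys k d (b d)).fn z) μ := integrable_finsetSum _ fun k _ => ii _ _ _
  have i2 : Integrable (fun z => (∑ k, (ml (S.χ 0 d * S.χ 0 d * kap d) (S.ys k d (b d))).fn z *
      (S.ys k d (b d)).fn z) + (ml (S.χ 0 d * S.χ 0 d * sig d) (S.Zb b d)).fn z *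
        (S.Zb b d).fn z) μ := i1.add (ii _ _ _)
  have i3 : Integrable (fun z => e d * ∑ k, (ml (S.χ 0 d * S.χ 0 d) (S.ys k d (b d))).fn z *
      (S.ys k d (b d)).fn z) μ := (integrable_finsetSum _ fun k _ => ii _ _ _).const_mul _
  rw [e2, ← integral_finsetSum _ fun k _ => ii _ _ _, ← integral_finsetSum _ fun k _ => ii _ _ _,
    ← integral_const_mul, ← integral_add i1 (ii _ _ _), ← integral_add i2 i3]
  refine integral_mono (i2.add i3)
      (integrable_finsetSum _ fun j _ => integrable_finsetSum _ fun k _ => ii _ _ _) fun z => ?_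
  simp only [ml_apply]
  have z2 : ∀ f g : Sm E, ((f * g : Sm E) : E → ℝ) z = (f : E → ℝ) z * (g : E → ℝ) z :=
    fun f g => rfl
  by_cases hz : (S.χ 0 d : E → ℝ) z = 0
  · simp only [z2, hz, zero_mul, Finset.sum_const_zero, mul_zero, add_zero, le_refl]
  · have hzΩ : z ∈ S.Ω d := S.χ1 0 (by norm_num) d z hz
    have h4 := hG d z hzΩ fun k => (S.ys k d (b d)).fn z
    have h5 := mul_le_mul_of_nonneg_left h4 (mul_self_nonneg ((S.χ 0 d : E → ℝ) z))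
    have zb : (S.Zb b d).fn z = ∑ k, (S.wy k d : E → ℝ) z * (S.ys k d (b d)).fn z := by
      unfold Zb
      rw [TE_sum_val]
      rfl
    simp only [z2, zb]
    have e3 : ∑ k, (S.χ 0 d : E → ℝ) z * (S.χ 0 d : E → ℝ) z * (kap d : E → ℝ) z *
        (S.ys k d (b d)).fn z * (S.ys k d (b d)).fn z =
        (S.χ 0 d : E → ℝ) z * (S.χ 0 d : E → ℝ) z * ((kap d : E → ℝ) z *
          ∑ k, (S.ys k d (b d)).fn z ^ 2) := by
      rw [Finset.mul_sum, Finset.mul_sum]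
      exact Finset.sum_congr rfl fun k _ => by ring
    have e4 : ∑ k, (S.χ 0 d : E → ℝ) z * (S.χ 0 d : E → ℝ) z *
        (S.ys k d (b d)).fn z * (S.ys k d (b d)).fn z =
        (S.χ 0 d : E → ℝ) z * (S.χ 0 d : E → ℝ) z * ∑ k, (S.ys k d (b d)).fn z ^ 2 := by
      rw [Finset.mul_sum]
      exact Finset.sum_congr rfl fun k _ => by ring
    have e5 : ∑ j, ∑ k, (S.χ 0 d : E → ℝ) z * (S.χ 0 d : E → ℝ) z * (S.G j k d : E → ℝ) z *
        (S.ys j d (b d)).fn z * (S.ys k d (b d)).fn z =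
        (S.χ 0 d : E → ℝ) z * (S.χ 0 d : E → ℝ) z * ∑ j, ∑ k, (S.G j k d : E → ℝ) z *
          (S.ys j d (b d)).fn z * (S.ys k d (b d)).fn z := by
      rw [Finset.mul_sum]
      refine Finset.sum_congr rfl fun j _ => ?_
      rw [Finset.mul_sum]
      exact Finset.sum_congr rfl fun k _ => by ring
    rw [e3, e4, e5]
    linarith

end Sg

end Vale.Agent.P088.R2.H820.W
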