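import Vale.Agent.P088.R2.H820.W.Tube1

/-!
# The estimate near a critical surface of minimum type
-/

open MeasureTheory Set
open scoped ContDiff

set_option linter.unusedSectionVars false

noncomputable section

namespace Vale.Agent.P088.R2.H820.W

open Vale.Agent.P088.R2.H464.EP

namespace Sg

variable {D E ι : Type} [NormedAddCommGroup E] [NormedSpace ℝ E] [Fintype ι] [MeasurableSpace E]
  [BorelSpace E] [FiniteDimensional ℝ E] {μ : Measure E} [μ.IsAddHaarMeasure]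
  {S : Sg D E ι μ} {s t m p : ℤ} {u v b : D → TE E} {g ψ kap sig lam om : D → Sm E}
  {T T₁ T₂ T₃ : D → ℝ} {e : D → ℝ} {c θ : ℝ}

/-- A scalar lower bound. -/
theorem ip_ge {χ g : Sm E} {c : ℝ} (h : ∀ z, (χ : E → ℝ) z ≠ 0 → c ≤ (g : E → ℝ) z) (a : TE E) :
    c * nm μ (ml χ a) ≤ ip μ (ml (χ * χ * g) a) a := by
  rw [nm_chi, ip_apply, ip_apply, ← integral_const_mul]
  refine integral_mono ((integrable_mul μ _ _).const_mul _) (integrable_mul μ _ _) fun z => ?_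
  simp only [ml_apply]
  have z2 : ∀ f g : Sm E, ((f * g : Sm E) : E → ℝ) z = (f : E → ℝ) z * (g : E → ℝ) z :=
    fun f g => rfl
  simp only [z2]
  by_cases hz : (χ : E → ℝ) z = 0
  · simp [hz]
  · have h1 := mul_le_mul_of_nonneg_left (h z hz) (mul_self_nonneg ((χ : E → ℝ) z * a.fn z))
    calc _ = (χ : E → ℝ) z * a.fn z * ((χ : E → ℝ) z * a.fn z) * c := by ring
      _ ≤ _ := h1
      _ = _ := by ring

/-- A lower bound for a quadratic form. -/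
theorem form_ge {χ : Sm E} {g : ι → ι → Sm E} {c : ℝ} (h : ∀ z, (χ : E → ℝ) z ≠ 0 →
    ∀ v : ι → ℝ, c * ∑ i, v i ^ 2 ≤ ∑ i, ∑ l, (g i l : E → ℝ) z * v i * v l) (u : ι → TE E) :
    c * ∑ i, nm μ (ml χ (u i)) ≤ ∑ i, ∑ l, ip μ (ml (χ * χ * g i l) (u i)) (u l) := by
  simp only [nm_chi, ip_apply]
  have ii : ∀ (g : Sm E) (p q : TE E), Integrable (fun z => (ml g p).fn z * q.fn z) μ :=
    fun g p q => integrable_mul μ _ _
  have e2 : ∑ j, ∑ k, ∫ z, (ml (χ * χ * g j k) (u j)).fn z * (u k).fn z ∂μ =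
      ∫ z, ∑ j, ∑ k, (ml (χ * χ * g j k) (u j)).fn z * (u k).fn z ∂μ := by
    rw [integral_finsetSum _ fun j _ => integrable_finsetSum _ fun k _ => ii _ _ _]
    exact Finset.sum_congr rfl fun j _ => (integral_finsetSum _ fun k _ => ii _ _ _).symm
  rw [e2, ← integral_finsetSum _ fun k _ => ii _ _ _, ← integral_const_mul]
  refine integral_mono ((integrable_finsetSum _ fun k _ => ii _ _ _).const_mul _)
      (integrable_finsetSum _ fun j _ => integrable_finsetSum _ fun k _ => ii _ _ _) fun z => ?_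
  simp only [ml_apply]
  have z2 : ∀ f g : Sm E, ((f * g : Sm E) : E → ℝ) z = (f : E → ℝ) z * (g : E → ℝ) z :=
    fun f g => rfl
  simp only [z2]
  by_cases hz : (χ : E → ℝ) z = 0
  · simp [hz]
  · have h5 := mul_le_mul_of_nonneg_left (h z hz fun i => (u i).fn z)
      (mul_self_nonneg ((χ : E → ℝ) z))
    have e4 : ∑ k, (χ : E → ℝ) z * (χ : E → ℝ) z * (u k).fn z * (u k).fn z =
        (χ : E → ℝ) z * (χ : E → ℝ) z * ∑ k, (u k).fn z ^ 2 := by
      rw [Finset.mul_sum]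
      exact Finset.sum_congr rfl fun k _ => by ring
    have e5 : ∑ j, ∑ k, (χ : E → ℝ) z * (χ : E → ℝ) z * (g j k : E → ℝ) z *
        (u j).fn z * (u k).fn z =
        (χ : E → ℝ) z * (χ : E → ℝ) z * ∑ j, ∑ k, (g j k : E → ℝ) z *
          (u j).fn z * (u k).fn z := by
      rw [Finset.mul_sum]
      refine Finset.sum_congr rfl fun j _ => ?_
      rw [Finset.mul_sum]
      exact Finset.sum_congr rfl fun k _ => by ring
    rw [e4, e5]
    calc _ = (χ : E → ℝ) z * (χ : E → ℝ) z * (c * ∑ k, (u k).fn z ^ 2) := by ring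
      _ ≤ _ := h5

/-- The weight `ψ`. -/
def ps (S : Sg D E ι μ) (om : D → Sm E) (d : D) : Sm E := S.χ 0 d * S.χ 0 d * om d

theorem Bps (ho : S.B (-6) om) : S.B (-6) (S.ps om) :=
  (Bχχ (S := S) (j := 0) (by norm_num)).mul' ho (by norm_num)

theorem Sps : Su (S.χ 1) (S.ps om) := (Sχχ (S := S) (j := 0) (by norm_num)).mul_right _

/-- **Elimination of `b`.** -/
theorem elim (hk : S.B 2 kap) (hs : S.B (-2) sig) (hl : S.B 6 lam) (ho : S.B (-6) om)
    (kp : ∀ d, ∀ z ∈ S.Ω d, 0 ≤ (kap d : E → ℝ) z) (sp : ∀ d, ∀ z ∈ S.Ω d, 0 ≤ (sig d : E → ℝ) z)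
    (ho1 : ∀ d, ∀ z ∈ S.Ω d, (om d : E → ℝ) z *
      ((S.gam kap sig d : E → ℝ) z * (S.L2 d : E → ℝ) z) = 1)
    (hG : ∀ d, ∀ z ∈ S.Ω d, ∀ v : ι → ℝ,
      (kap d : E → ℝ) z * ∑ k, v k ^ 2 + (sig d : E → ℝ) z * (∑ k, (S.wy k d : E → ℝ) z * v k) ^ 2 +
        e d * ∑ k, v k ^ 2 ≤ ∑ j, ∑ k, (S.G j k d : E → ℝ) z * v j * v k)
    (hN : ∀ d, ∀ z ∈ S.Ω d, ∀ v : ι → ℝ,
      ∑ j, ∑ k, (S.N3 j k d : E → ℝ) z * v j * v k ≤ (lam d : E → ℝ) z * ∑ k, v k ^ 2)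
    (qb : S.Q 3 (-2) b) (pb : S.Q 1 1 (fun d => S.P2 d (b d))) :
    S.Lq (fun d => (∑ i, ∑ l, ip μ (ml (S.χ 0 d * S.χ 0 d * S.H i l d) (S.xs i d (S.a d)))
          (S.xs l d (S.a d))) -
        2 * (∑ j, ip μ (ml (S.ps om d * S.L2 d) (S.f j d)) (S.f j d)) +
        4 * ip μ (ml (S.ps om d * (S.tN d - lam d) * S.L2 d) (S.a d)) (S.a d) +
        e d * ∑ k, nm μ (ml (S.χ 0 d) (S.ys k d (b d))))
      (fun d => (∑ i, ∑ l, ip μ (ml (S.χ 0 d * S.χ 0 d * S.H i l d) (S.xs i d (S.a d)))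
          (S.xs l d (S.a d))) +
        2 * (∑ i, ∑ j, ip μ (ml (S.χ 0 d * S.χ 0 d * S.M i j d) (S.xs i d (S.a d)))
          (S.ys j d (b d))) +
        ∑ j, ∑ k, ip μ (ml (S.χ 0 d * S.χ 0 d * S.G j k d) (S.ys j d (b d)))
          (S.ys k d (b d))) := by
  have hL : ∀ d z, 0 ≤ (S.L2 d : E → ℝ) z := fun d z => by
    unfold L2
    rw [sum_val]
    exact Finset.sum_nonneg fun k _ => mul_self_nonneg _
  have op : ∀ d, ∀ z ∈ S.Ω d, 0 ≤ (om d : E → ℝ) z := by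
    intro d z hz
    have h1 := ho1 d z hz
    have h2 : 0 ≤ (S.gam kap sig d : E → ℝ) z * (S.L2 d : E → ℝ) z := by
      refine mul_nonneg ?_ (hL d z)
      have : (S.gam kap sig d : E → ℝ) z = (kap d : E → ℝ) z + (kap d : E → ℝ) z +
          (sig d : E → ℝ) z * (S.L2 d : E → ℝ) z := rfl
      rw [this]
      have := mul_nonneg (sp d z hz) (hL d z)
      have := kp d z hz
      linarith
    by_contra hc
    have h3 : (om d : E → ℝ) z * ((S.gam kap sig d : E → ℝ) z * (S.L2 d : E → ℝ) z) ≤ 0 :=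
      mul_nonpos_of_nonpos_of_nonneg (le_of_lt (not_le.1 hc)) h2
    linarith
  have pψ : ∀ d z, 0 ≤ (S.ps om d : E → ℝ) z := by
    intro d z
    change 0 ≤ (S.χ 0 d : E → ℝ) z * (S.χ 0 d : E → ℝ) z * (om d : E → ℝ) z
    by_cases hz : (S.χ 0 d : E → ℝ) z = 0
    · rw [hz]; simp
    · exact mul_nonneg (mul_self_nonneg _) (op d z (S.χ1 0 (by norm_num) d z hz))
  have gl : ∀ d, S.ps om d * (S.gam kap sig d * S.L2 d) = S.χ 0 d * S.χ 0 d := by
    intro d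
    apply Subtype.ext
    funext z
    change (S.χ 0 d : E → ℝ) z * (S.χ 0 d : E → ℝ) z * (om d : E → ℝ) z *
      ((S.gam kap sig d : E → ℝ) z * (S.L2 d : E → ℝ) z) =
        (S.χ 0 d : E → ℝ) z * (S.χ 0 d : E → ℝ) z
    by_cases hz : (S.χ 0 d : E → ℝ) z = 0
    · rw [hz]; simp
    · rw [mul_assoc, ho1 d z (S.χ1 0 (by norm_num) d z hz), mul_one]
  obtain ⟨T1, hT1, h1⟩ := J_le' (Bps ho) Sps pψ hl hN
  obtain ⟨T2, hT2, h2⟩ := gv2 (b := b) hs sp qb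
  have h3 := gv1 hk qb pb
  have h4 := mv (b := b) qb
  refine ⟨_, ((hT1.add hT2).sub h3).sub (h4.cmul 2), fun d => ?_⟩
  have g1 := h1 d
  have g2 := h2 d
  have g3 := gv (b := b) hG d
  beta_reduce at g1 g2 ⊢
  -- the square
  have sq := ip_ml_nonneg μ (pψ d) (ml (S.gam kap sig d * S.L2 d) (b d) + S.Yf d)
  have sq1 : ip μ (ml (S.ps om d) (ml (S.gam kap sig d * S.L2 d) (b d) + S.Yf d))
      (ml (S.gam kap sig d * S.L2 d) (b d) + S.Yf d) =
      2 * ip μ (ml (S.χ 0 d * S.χ 0 d * kap d * S.L2 d) (b d)) (b d) +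
      ip μ (ml (S.χ 0 d * S.χ 0 d * sig d * S.L2 d * S.L2 d) (b d)) (b d) +
      2 * ip μ (ml (S.χ 0 d * S.χ 0 d) (S.Yf d)) (b d) + ip μ (ml (S.ps om d) (S.Yf d))
        (S.Yf d) := by
    simp only [map_add, LinearMap.add_apply]
    have a1 : ip μ (ml (S.ps om d) (ml (S.gam kap sig d * S.L2 d) (b d)))
        (ml (S.gam kap sig d * S.L2 d) (b d)) =
        2 * ip μ (ml (S.χ 0 d * S.χ 0 d * kap d * S.L2 d) (b d)) (b d) +
        ip μ (ml (S.χ 0 d * S.χ 0 d * sig d * S.L2 d * S.L2 d) (b d)) (b d) := by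
      rw [← ip_ml, ml_ml, mul_comm _ (S.ps om d), gl, ml_ml]
      have : S.χ 0 d * S.χ 0 d * (S.gam kap sig d * S.L2 d) =
          S.χ 0 d * S.χ 0 d * kap d * S.L2 d + S.χ 0 d * S.χ 0 d * kap d * S.L2 d +
          S.χ 0 d * S.χ 0 d * sig d * S.L2 d * S.L2 d := by
        unfold gam; ring
      rw [this]
      simp only [ml_add', map_add, LinearMap.add_apply]
      ring
    have a2 : ip μ (ml (S.ps om d) (S.Yf d)) (ml (S.gam kap sig d * S.L2 d) (b d)) =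
        ip μ (ml (S.χ 0 d * S.χ 0 d) (S.Yf d)) (b d) := by
      rw [← ip_ml, ml_ml, mul_comm _ (S.ps om d), gl]
    rw [a1, a2, ip_sym (S.ps om d) (ml (S.gam kap sig d * S.L2 d) (b d)), a2]
    ring
  linarith

end Sg

end Vale.Agent.P088.R2.H820.W
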