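import Vale.Agent.P088.R2.H820.W.Tube2

/-!
# The estimate near a critical surface of minimum type, final form
-/

open MeasureTheory Set
open scoped ContDiff

set_option linter.unusedSectionVars false

noncomputable section

namespace Vale.Agent.P088.R2.H820.W

open Vale.Agent.P088.R2.H464.EP

namespace Sg

variable {D E ι : Type} [NormedAddCommGroup E] [NormedSpace ℝ E] [Fintype ι] [MeasurableSpace E]
  [BorelSpace E] [FiniteDimensional ℝ E] {μ : Measure E} [μ.IsAddHaarMeasure]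
  {S : Sg D E ι μ} {s t m p : ℤ} {u v b : D → TE E} {g ψ kap sig lam om : D → Sm E}
  {T T₁ T₂ T₃ : D → ℝ} {e : D → ℝ} {c θ : ℝ}

/-- The reduced form `g = H - (2 / γ) M Mᵀ`. -/
def gg (S : Sg D E ι μ) (om : D → Sm E) (i l : ι) (d : D) : Sm E :=
  S.H i l d - (2 : ℝ) • (om d * S.L2 d * ∑ j, S.M i j d * S.M l j d)

/-- `tr (g H)`. -/
def tgH (S : Sg D E ι μ) (om : D → Sm E) (d : D) : Sm E :=
  ∑ i, ∑ l, S.gg om i l d * S.H i l d

/-- `|H|²`. -/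
def HH (S : Sg D E ι μ) (d : D) : Sm E := ∑ i, ∑ l, S.H i l d * S.H i l d

theorem Bgg (ho : S.B (-6) om) (i l : ι) : S.B 2 (S.gg om i l) :=
  (S.BH i l).sub (((ho.mul BL2).mul' (Bd.sum _ fun j _ => (S.BM i j).mul (S.BM l j))
    (by norm_num)).cmul 2)

theorem gg_form (d : D) : ∑ i, ∑ l, ip μ (ml (S.χ 0 d * S.χ 0 d * S.gg om i l d)
      (S.xs i d (S.a d))) (S.xs l d (S.a d)) =
    (∑ i, ∑ l, ip μ (ml (S.χ 0 d * S.χ 0 d * S.H i l d) (S.xs i d (S.a d)))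
          (S.xs l d (S.a d))) -
        2 * (∑ j, ip μ (ml (S.ps om d * S.L2 d) (S.f j d)) (S.f j d)) := by
  have e1 : ∑ j, ip μ (ml (S.ps om d * S.L2 d) (S.f j d)) (S.f j d) =
      ∑ i, ∑ l, ip μ (ml (S.ps om d * S.L2 d * ∑ j, S.M i j d * S.M l j d)
        (S.xs i d (S.a d))) (S.xs l d (S.a d)) := by
    have e2 : ∀ j, ip μ (ml (S.ps om d * S.L2 d) (S.f j d)) (S.f j d) =
        ∑ i, ∑ l, ip μ (ml (S.ps om d * S.L2 d * (S.M i j d * S.M l j d))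
        (S.xs i d (S.a d))) (S.xs l d (S.a d)) := by
      intro j
      unfold f
      simp only [map_sum, LinearMap.sum_apply]
      rw [Finset.sum_comm]
      refine Finset.sum_congr rfl fun i _ => Finset.sum_congr rfl fun l _ => ?_
      rw [← ip_ml, ml_ml, ml_ml, show S.M l j d * (S.ps om d * S.L2 d) * S.M i j d =
        S.ps om d * S.L2 d * (S.M i j d * S.M l j d) by ring]
    simp only [e2]
    rw [Finset.sum_comm]
    refine Finset.sum_congr rfl fun i _ => ?_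
    rw [Finset.sum_comm]
    refine Finset.sum_congr rfl fun l _ => ?_
    rw [Finset.mul_sum, map_sum, LinearMap.sum_apply, map_sum, LinearMap.sum_apply]
  rw [e1, Finset.mul_sum, ← Finset.sum_sub_distrib]
  refine Finset.sum_congr rfl fun i _ => ?_
  rw [Finset.mul_sum, ← Finset.sum_sub_distrib]
  refine Finset.sum_congr rfl fun l _ => ?_
  have : S.χ 0 d * S.χ 0 d * S.gg om i l d = S.χ 0 d * S.χ 0 d * S.H i l d -
      (2 : ℝ) • (S.ps om d * S.L2 d * ∑ j, S.M i j d * S.M l j d) := by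
    unfold gg ps
    rw [mul_sub, mul_smul_comm]
    congr 2
    ring
  rw [this, ml_sub', ml_smul', map_sub, LinearMap.sub_apply, map_smul, LinearMap.smul_apply,
    smul_eq_mul]

/-- The zero point energy of `g`. -/
theorem gg_swap (ho : S.B (-6) om) (hg : ∀ d, ∀ z ∈ S.Ω d, ∀ v : ι → ℝ,
      0 ≤ ∑ i, ∑ l, (S.gg om i l d : E → ℝ) z * v i * v l) :
    S.Lq (fun d => 2 * ip μ (ml (S.χ 0 d * S.χ 0 d * S.tgH om d) (S.a d)) (S.a d))
      (fun d => ∑ i, ∑ l, ip μ (ml (S.χ 0 d * S.χ 0 d * S.gg om i l d)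
      (S.xs i d (S.a d))) (S.xs l d (S.a d))) := by
  have hφ : ∀ i l, S.B 2 (fun d => S.χ 0 d * S.χ 0 d * S.gg om i l d) := fun i l =>
    (Bχχ (by norm_num)).mul' (Bgg ho i l) (by norm_num)
  have sφ : ∀ i l, Su (S.χ 1) (fun d => S.χ 0 d * S.χ 0 d * S.gg om i l d) := fun i l =>
    (Sχχ (j := 0) (by norm_num)).mul_right _
  have a2 : ∀ i l, S.R 1 (fun d => ip μ (ml (ds (S.dir (Sum.inl i))
      (S.χ 0 d * S.χ 0 d * S.gg om i l d)) (S.x l d (S.a d))) (S.a d)) := fun i l =>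
    R_ip ((hφ i l).dr _) ((sφ i l).dr _) (by norm_num) (Q_dn (q_x l) (by norm_num))
      (q_a (by norm_num)) (by norm_num)
  have a3 : ∀ i l, S.R 1 (fun d => ip μ (ml (ds (S.dir (Sum.inl l))
      (S.χ 0 d * S.χ 0 d * S.gg om i l d)) (S.xs i d (S.a d))) (S.a d)) := fun i l =>
    R_ip ((hφ i l).dr _) ((sφ i l).dr _) (by norm_num) (Q_dn (q_xs i) (by norm_num))
      (q_a (by norm_num)) (by norm_num)
  refine ⟨_, (Rm.sum Finset.univ fun i _ => Rm.sum Finset.univ fun l _ =>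
    (a2 i l).add (a3 i l)).neg, fun d => ?_⟩
  beta_reduce
  have e1 : ∀ i l, ip μ (ml (S.χ 0 d * S.χ 0 d * S.gg om i l d)
      (S.xs i d (S.a d))) (S.xs l d (S.a d)) =
      ip μ (ml (S.χ 0 d * S.χ 0 d * S.gg om i l d) (S.x l d (S.a d))) (S.x i d (S.a d)) +
      2 * ip μ (ml (S.χ 0 d * S.χ 0 d * S.gg om i l d * S.H i l d) (S.a d)) (S.a d) +
      (ip μ (ml (ds (S.dir (Sum.inl i))
      (S.χ 0 d * S.χ 0 d * S.gg om i l d)) (S.x l d (S.a d))) (S.a d) +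
      ip μ (ml (ds (S.dir (Sum.inl l))
      (S.χ 0 d * S.χ 0 d * S.gg om i l d)) (S.xs i d (S.a d))) (S.a d)) := by
    intro i l
    unfold xs x
    rw [swap]
    unfold H
    ring
  have e2 : ∑ i, ∑ l, ip μ (ml (S.χ 0 d * S.χ 0 d * S.gg om i l d * S.H i l d) (S.a d))
      (S.a d) = ip μ (ml (S.χ 0 d * S.χ 0 d * S.tgH om d) (S.a d)) (S.a d) := by
    unfold tgH
    simp only [Finset.mul_sum, map_sum, LinearMap.sum_apply, mul_assoc]
  have e3 : 0 ≤ ∑ i, ∑ l, ip μ (ml (S.χ 0 d * S.χ 0 d * S.gg om i l d) (S.x l d (S.a d)))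
      (S.x i d (S.a d)) := by
    rw [Finset.sum_comm]
    have h := form_ge (μ := μ) (χ := S.χ 0 d) (g := fun l i => S.gg om i l d) (c := 0)
      (fun z hz v => by
        have := hg d z (S.χ1 0 (by norm_num) d z hz) v
        rw [zero_mul]
        rw [Finset.sum_comm] at this
        refine this.trans_eq ?_
        exact Finset.sum_congr rfl fun i _ => Finset.sum_congr rfl fun l _ => by ring)
      fun l => S.x l d (S.a d)
    simpa using h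
  simp only [e1, Finset.sum_add_distrib, ← Finset.mul_sum, e2]
  linarith

/-- **The estimate near a critical surface of minimum type.** -/
theorem tube (hk : S.B 2 kap) (hs : S.B (-2) sig) (hl : S.B 6 lam) (ho : S.B (-6) om)
    (kp : ∀ d, ∀ z ∈ S.Ω d, 0 ≤ (kap d : E → ℝ) z) (sp : ∀ d, ∀ z ∈ S.Ω d, 0 ≤ (sig d : E → ℝ) z)
    (ho1 : ∀ d, ∀ z ∈ S.Ω d, (om d : E → ℝ) z *
      ((S.gam kap sig d : E → ℝ) z * (S.L2 d : E → ℝ) z) = 1)
    (hG : ∀ d, ∀ z ∈ S.Ω d, ∀ v : ι → ℝ,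
      (kap d : E → ℝ) z * ∑ k, v k ^ 2 + (sig d : E → ℝ) z * (∑ k, (S.wy k d : E → ℝ) z * v k) ^ 2 +
        e d * ∑ k, v k ^ 2 ≤ ∑ j, ∑ k, (S.G j k d : E → ℝ) z * v j * v k)
    (hN : ∀ d, ∀ z ∈ S.Ω d, ∀ v : ι → ℝ,
      ∑ j, ∑ k, (S.N3 j k d : E → ℝ) z * v j * v k ≤ (lam d : E → ℝ) z * ∑ k, v k ^ 2)
    (hc : 0 ≤ c) (h0 : 0 ≤ θ) (h1 : θ ≤ 1)
    (hg : ∀ d, ∀ z ∈ S.Ω d, ∀ v : ι → ℝ,
      c * S.h d ^ 2 * ∑ i, v i ^ 2 ≤ ∑ i, ∑ l, (S.gg om i l d : E → ℝ) z * v i * v l)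
    (ht : ∀ d, ∀ z ∈ S.Ω d, c * S.h d ^ 4 ≤ 2 * (1 - θ) * (S.tgH om d : E → ℝ) z +
      4 * ((om d : E → ℝ) z * (S.L2 d : E → ℝ) z * ((S.tN d : E → ℝ) z - (lam d : E → ℝ) z)) -
        (S.HH d : E → ℝ) z)
    (qb : S.Q 3 (-2) b) (pb : S.Q 1 1 (fun d => S.P2 d (b d))) :
    S.Lq (fun d => θ * c * S.h d ^ 2 * (∑ i, nm μ (ml (S.χ 0 d) (S.xs i d (S.a d)))) +
        c * S.h d ^ 4 * nm μ (ml (S.χ 0 d) (S.a d)) +
        e d * ∑ k, nm μ (ml (S.χ 0 d) (S.ys k d (b d))))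
      (fun d => (∑ i, ∑ l, ip μ (ml (S.χ 0 d * S.χ 0 d * S.H i l d) (S.xs i d (S.a d)))
          (S.xs l d (S.a d))) +
        2 * (∑ i, ∑ j, ip μ (ml (S.χ 0 d * S.χ 0 d * S.M i j d) (S.xs i d (S.a d)))
          (S.ys j d (b d))) +
        (∑ j, ∑ k, ip μ (ml (S.χ 0 d * S.χ 0 d * S.G j k d) (S.ys j d (b d)))
          (S.ys k d (b d))) -
        ip μ (ml (S.χ 0 d * S.χ 0 d * S.HH d) (S.a d)) (S.a d)) := by
  obtain ⟨T1, hT1, h2⟩ := elim (b := b) hk hs hl ho kp sp ho1 hG hN qb pb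
  obtain ⟨T2, hT2, h3⟩ := gg_swap (S := S) ho fun d z hz v =>
    (mul_nonneg (mul_nonneg hc (sq_nonneg _)) (Finset.sum_nonneg fun i _ => sq_nonneg _)).trans
      (hg d z hz v)
  refine ⟨_, hT1.add (hT2.cmul (1 - θ)), fun d => ?_⟩
  have g2 := h2 d
  have g3 := mul_le_mul_of_nonneg_left (h3 d) (by linarith : 0 ≤ 1 - θ)
  beta_reduce at g2 g3 ⊢
  have g4 := form_ge (μ := μ) (χ := S.χ 0 d) (g := fun i l => S.gg om i l d)
    (c := c * S.h d ^ 2) (fun z hz v => hg d z (S.χ1 0 (by norm_num) d z hz) v)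
    fun i => S.xs i d (S.a d)
  have g5 := mul_le_mul_of_nonneg_left g4 h0
  have g6 := ip_ge (μ := μ) (χ := S.χ 0 d) (g := (2 * (1 - θ)) • S.tgH om d +
    (4 : ℝ) • (om d * S.L2 d * (S.tN d - lam d)) - S.HH d) (c := c * S.h d ^ 4)
    (fun z hz => ht d z (S.χ1 0 (by norm_num) d z hz)) (S.a d)
  have e1 : ip μ (ml (S.χ 0 d * S.χ 0 d * ((2 * (1 - θ)) • S.tgH om d +
    (4 : ℝ) • (om d * S.L2 d * (S.tN d - lam d)) - S.HH d)) (S.a d)) (S.a d) =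
      2 * (1 - θ) * ip μ (ml (S.χ 0 d * S.χ 0 d * S.tgH om d) (S.a d)) (S.a d) +
      4 * ip μ (ml (S.ps om d * (S.tN d - lam d) * S.L2 d) (S.a d)) (S.a d) -
      ip μ (ml (S.χ 0 d * S.χ 0 d * S.HH d) (S.a d)) (S.a d) := by
    rw [mul_sub, mul_add, mul_smul_comm, mul_smul_comm, ml_sub', ml_add', ml_smul', ml_smul']
    simp only [map_add, map_sub, map_smul, LinearMap.add_apply, LinearMap.sub_apply,
      LinearMap.smul_apply, smul_eq_mul]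
    rw [show S.ps om d * (S.tN d - lam d) * S.L2 d = S.χ 0 d * S.χ 0 d *
      (om d * S.L2 d * (S.tN d - lam d)) by unfold ps; ring]
  rw [e1] at g6
  have g7 := gg_form (μ := μ) (S := S) (om := om) d
  rw [g7] at g3 g5
  nlinarith

end Sg

end Vale.Agent.P088.R2.H820.W
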