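import Vale.Agent.P088.R2.H820.W.Fj

/-!
# Swaps and the wedge term
-/

open MeasureTheory Set
open scoped ContDiff

set_option linter.unusedSectionVars false

noncomputable section

namespace Vale.Agent.P088.R2.H820.W

open Vale.Agent.P088.R2.H464.EP

namespace Sg

variable {D E ι : Type} [NormedAddCommGroup E] [NormedSpace ℝ E] [Fintype ι] [MeasurableSpace E]
  [BorelSpace E] [FiniteDimensional ℝ E] {μ : Measure E} [μ.IsAddHaarMeasure]
  {S : Sg D E ι μ} {s t m p : ℤ} {u v : D → TE E} {g ψ : D → Sm E} {T : D → ℝ}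

theorem ip_sym (ψ : Sm E) (u v : TE E) : ip μ (ml ψ u) v = ip μ (ml ψ v) u := by
  rw [ip_ml, ip_comm]

theorem anti_sum (ψ : Sm E) (A : ι → ι → TE E) :
    ∑ j, ∑ k, ip μ (ml ψ (A j k - A k j)) (A j k - A k j) =
      2 * (∑ j, ∑ k, ip μ (ml ψ (A j k)) (A j k)) - 2 * ∑ j, ∑ k, ip μ (ml ψ (A j k)) (A k j) := by
  have e : ∀ j k, ip μ (ml ψ (A j k - A k j)) (A j k - A k j) =
      ip μ (ml ψ (A j k)) (A j k) + ip μ (ml ψ (A k j)) (A k j) -
        2 * ip μ (ml ψ (A j k)) (A k j) := by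
    intro j k
    simp only [map_sub, LinearMap.sub_apply]
    rw [ip_sym ψ (A k j) (A j k)]
    ring
  simp only [e, Finset.sum_add_distrib, Finset.sum_sub_distrib, ← Finset.mul_sum]
  rw [Finset.sum_comm (f := fun j k => ip μ (ml ψ (A k j)) (A k j))]
  ring

/-- Swap in `y`. -/
theorem swap_y (hψ : S.B (-6) ψ) (sψ : Su (S.χ 1) ψ) (k l : ι) (hu : S.Q 1 2 u) (hv : S.Q 1 2 v)
    (h1 : S.Q 1 4 (fun d => S.y l d (u d))) (h2 : S.Q 1 4 (fun d => S.ys k d (u d))) :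
    S.R 1 (fun d => ip μ (ml (ψ d) (S.ys k d (u d))) (S.ys l d (v d)) -
      ip μ (ml (ψ d) (S.y l d (u d))) (S.y k d (v d))) := by
  have a1 : S.R 1 (fun d => ip μ (ml (ψ d * S.G k l d) (u d)) (v d)) :=
    R_ip (hψ.mul (S.BG k l)) (sψ.mul_right _) (by norm_num) hu hv (by norm_num)
  have a2 : S.R 1 (fun d => ip μ (ml (ds (S.dir (Sum.inr k)) (ψ d)) (S.y l d (u d))) (v d)) :=
    R_ip (hψ.dr _) (sψ.dr _) (by norm_num) h1 hv (by norm_num)
  have a3 : S.R 1 (fun d => ip μ (ml (ds (S.dir (Sum.inr l)) (ψ d)) (S.ys k d (u d))) (v d)) :=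
    R_ip (hψ.dr _) (sψ.dr _) (by norm_num) h2 hv (by norm_num)
  refine (((a1.cmul 2).add a2).add a3).congr fun d => ?_
  unfold ys y
  rw [swap]
  unfold G
  ring

/-- Swap in `x` with coefficients. -/
theorem swap_x {α : ℤ} (hα : α ≤ -2) {pp qq : ι → D → Sm E} (sψ : Su (S.χ 1) ψ)
    (hφ : ∀ i l, S.B α (fun d => ψ d * (pp i d * qq l d))) (hv : S.Q 1 1 v)
    (h1 : ∀ i, S.Q 1 2 (fun d => S.x i d (u d))) (h2 : ∀ i, S.Q 1 2 (fun d => S.xs i d (u d))) :
    S.R 1 (fun d => ip μ (ml (ψ d) (∑ i, ml (pp i d) (S.xs i d (u d))))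
        (∑ l, ml (qq l d) (S.xs l d (v d))) -
      (ip μ (ml (ψ d) (∑ l, ml (qq l d) (S.x l d (u d)))) (∑ i, ml (pp i d) (S.x i d (v d))) +
        2 * ∑ i, ∑ l, ip μ (ml (ψ d * (pp i d * qq l d) * S.H i l d) (u d)) (v d))) := by
  have sφ : ∀ i l, Su (S.χ 1) (fun d => ψ d * (pp i d * qq l d)) := fun i l => sψ.mul_right _
  have a2 : ∀ i l, S.R 1 (fun d => ip μ (ml (ds (S.dir (Sum.inl i)) (ψ d * (pp i d * qq l d)))
      (S.x l d (u d))) (v d)) := fun i l =>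
    R_ip ((hφ i l).dr _) ((sφ i l).dr _) (by norm_num) (h1 l) hv (by omega)
  have a3 : ∀ i l, S.R 1 (fun d => ip μ (ml (ds (S.dir (Sum.inl l)) (ψ d * (pp i d * qq l d)))
      (S.xs i d (u d))) (v d)) := fun i l =>
    R_ip ((hφ i l).dr _) ((sφ i l).dr _) (by norm_num) (h2 i) hv (by omega)
  refine (Rm.sum Finset.univ fun i _ => Rm.sum Finset.univ fun l _ =>
    (a2 i l).add (a3 i l)).congr fun d => ?_
  have e1 : ip μ (ml (ψ d) (∑ i, ml (pp i d) (S.xs i d (u d))))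
        (∑ l, ml (qq l d) (S.xs l d (v d))) =
      ∑ i, ∑ l, ip μ (ml (ψ d * (pp i d * qq l d)) (S.xs i d (u d))) (S.xs l d (v d)) := by
    simp only [map_sum, LinearMap.sum_apply]
    rw [Finset.sum_comm]
    refine Finset.sum_congr rfl fun i _ => Finset.sum_congr rfl fun l _ => ?_
    rw [← ip_ml, ml_ml, ml_ml, show qq l d * ψ d * pp i d = ψ d * (pp i d * qq l d) by ring]
  have e2 : ip μ (ml (ψ d) (∑ l, ml (qq l d) (S.x l d (u d))))
        (∑ i, ml (pp i d) (S.x i d (v d))) =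
      ∑ i, ∑ l, ip μ (ml (ψ d * (pp i d * qq l d)) (S.x l d (u d))) (S.x i d (v d)) := by
    simp only [map_sum, LinearMap.sum_apply]
    refine Finset.sum_congr rfl fun i _ => Finset.sum_congr rfl fun l _ => ?_
    rw [← ip_ml, ml_ml, ml_ml, show pp i d * ψ d * qq l d = ψ d * (pp i d * qq l d) by ring]
  rw [e1, e2, Finset.mul_sum]
  simp only [Finset.mul_sum, ← Finset.sum_add_distrib, ← Finset.sum_sub_distrib]
  refine Finset.sum_congr rfl fun i _ => Finset.sum_congr rfl fun l _ => ?_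
  unfold xs x
  rw [swap]
  unfold H
  ring

/-- `∑ M_ij xs_i ys_k a`. -/
def tt (S : Sg D E ι μ) (j k : ι) (d : D) : TE E :=
  ∑ i, ml (S.M i j d) (S.xs i d (S.ys k d (S.a d)))

/-- `∑ M_ij x_i ys_k a`. -/
def uu (S : Sg D E ι μ) (j k : ι) (d : D) : TE E :=
  ∑ i, ml (S.M i j d) (S.x i d (S.ys k d (S.a d)))

theorem ys_f_eq (j k : ι) (d : D) : S.ys k d (S.f j d) =
    S.tt j k d - ∑ i, ml (S.dM k i j d) (S.xs i d (S.a d)) := by
  rw [ys_f, Finset.sum_sub_distrib]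
  unfold tt
  congr 1
  refine Finset.sum_congr rfl fun i _ => ?_
  rw [xs_ys]

theorem w_eq (j k : ι) (d : D) : S.ys k d (S.f j d) - S.ys j d (S.f k d) =
    S.tt j k d - S.tt k j d := by
  rw [ys_f_eq, ys_f_eq]
  have : ∑ i, ml (S.dM k i j d) (S.xs i d (S.a d)) = ∑ i, ml (S.dM j i k d) (S.xs i d (S.a d)) :=
    Finset.sum_congr rfl fun i _ => by rw [dM_symm]
  rw [this]
  abel

/-- The correction between `uu` and `ys f'`. -/
def rho (S : Sg D E ι μ) (j k : ι) (d : D) : TE E :=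
  ∑ i, (ml (S.dM k i j d) (S.x i d (S.a d)) + (2 : ℝ) • ml (S.M i j d * S.M i k d) (S.a d))

theorem uu_eq (j k : ι) (d : D) : S.uu j k d = S.ys k d (S.f' j d) + S.rho j k d := by
  rw [ys_f']
  unfold uu rho
  rw [← Finset.sum_add_distrib]
  refine Finset.sum_congr rfl fun i _ => ?_
  rw [x_ys, map_add, map_smul, ml_ml]
  abel

theorem q_rho (j k : ι) : S.Q 1 3 (S.rho j k) := by
  refine (Qd.sum Finset.univ fun i _ => Qd.add ?_ (Qd.cmul _ ?_)).congr fun d => rfl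
  · exact Q_ml' (Q_dn (q_x i) (by norm_num)) (S.BdM k i j) (by norm_num) (by norm_num)
  · exact Q_ml' (q_a (by norm_num)) ((S.BM i j).mul (S.BM i k)) (by norm_num) (by norm_num)

/-- `∑_il M_ij M_lk H_il`. -/
def N3 (S : Sg D E ι μ) (j k : ι) (d : D) : Sm E :=
  ∑ i, ∑ l, S.M i j d * S.M l k d * S.H i l d

theorem BN3 (j k : ι) : S.B 6 (S.N3 j k) :=
  Bd.sum _ fun i _ => Bd.sum _ fun l _ =>
    ((S.BM i j).mul (S.BM l k)).mul' (S.BH i l) (by norm_num)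

theorem sum_N3 (ψ : Sm E) (j k : ι) (d : D) (u v : TE E) :
    ∑ i, ∑ l, ip μ (ml (ψ * (S.M i j d * S.M l k d) * S.H i l d) u) v =
      ip μ (ml (ψ * S.N3 j k d) u) v := by
  unfold N3
  rw [Finset.mul_sum, map_sum, LinearMap.sum_apply, map_sum, LinearMap.sum_apply]
  refine Finset.sum_congr rfl fun i _ => ?_
  rw [Finset.mul_sum, map_sum, LinearMap.sum_apply, map_sum, LinearMap.sum_apply]
  refine Finset.sum_congr rfl fun l _ => ?_
  rw [mul_assoc]

/-- The wedge term, first part. -/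
theorem wedge1 (hψ : S.B (-6) ψ) (sψ : Su (S.χ 1) ψ) :
    S.R 1 (fun d => (∑ j, ∑ k, ip μ (ml (ψ d) (S.ys k d (S.f j d) - S.ys j d (S.f k d)))
        (S.ys k d (S.f j d) - S.ys j d (S.f k d))) -
      (2 * ((∑ j, ∑ k, ip μ (ml (ψ d) (S.uu j k d)) (S.uu j k d)) -
          ∑ j, ∑ k, ip μ (ml (ψ d) (S.uu k k d)) (S.uu j j d)) +
        4 * ((∑ j, ∑ k, ip μ (ml (ψ d * S.N3 j j d) (S.ys k d (S.a d))) (S.ys k d (S.a d))) -
          ∑ j, ∑ k, ip μ (ml (ψ d * S.N3 j k d) (S.ys k d (S.a d))) (S.ys j d (S.a d))))) := by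
  have qs : ∀ k, S.Q 1 1 (fun d => S.ys k d (S.a d)) := fun k => Q_dn (q_ys k) (by norm_num)
  have hφ : ∀ j k i l, S.B (-2) (fun d => ψ d * (S.M i j d * S.M l k d)) := fun j k i l =>
    hψ.mul' ((S.BM i j).mul (S.BM l k)) (by norm_num)
  have a1 : ∀ j k, S.R 1 (fun d => ip μ (ml (ψ d) (S.tt j k d)) (S.tt j k d) -
      (ip μ (ml (ψ d) (S.uu j k d)) (S.uu j k d) +
        2 * ip μ (ml (ψ d * S.N3 j j d) (S.ys k d (S.a d))) (S.ys k d (S.a d)))) := by
    intro j k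
    refine (swap_x (S := S) (u := fun d => S.ys k d (S.a d)) (v := fun d => S.ys k d (S.a d))
      (le_refl (-2)) sψ (hφ j j) (qs k) (fun i => q_x_ys i k)
      (fun i => q_xs_ys i k)).congr fun d => ?_
    rw [sum_N3]
    rfl
  have a2 : ∀ j k, S.R 1 (fun d => ip μ (ml (ψ d) (S.tt j k d)) (S.tt k j d) -
      (ip μ (ml (ψ d) (S.uu k k d)) (S.uu j j d) +
        2 * ip μ (ml (ψ d * S.N3 j k d) (S.ys k d (S.a d))) (S.ys j d (S.a d)))) := by
    intro j k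
    refine (swap_x (S := S) (u := fun d => S.ys k d (S.a d)) (v := fun d => S.ys j d (S.a d))
      (le_refl (-2)) sψ (hφ j k) (qs j) (fun i => q_x_ys i k)
      (fun i => q_xs_ys i k)).congr fun d => ?_
    rw [sum_N3]
    rfl
  have a3 := ((Rm.sum Finset.univ fun j _ => Rm.sum Finset.univ fun k _ => a1 j k).cmul 2).sub
    ((Rm.sum Finset.univ fun j _ => Rm.sum Finset.univ fun k _ => a2 j k).cmul 2)
  refine a3.congr fun d => ?_
  simp only [w_eq]
  rw [anti_sum]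
  simp only [Finset.sum_sub_distrib, Finset.sum_add_distrib, ← Finset.mul_sum]
  ring

end Sg

end Vale.Agent.P088.R2.H820.W
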